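import Crest.Agent.S0066Lib.FarMain
import Crest.Prelude.Def_OrderedMatrix

/-! Transfer from the lines to `Fin n`. -/

set_option autoImplicit false

namespace Crest.Agent.S0066Lib

open Line Crest.CombinatoricsR.OrderedMatrix

variable {d M N n : ℕ}

/-- The order embedding of the lines. -/
noncomputable def lineEmb (hn : Fintype.card (Line d M) ≤ n) : Line d M ↪o Fin n :=
  (Fintype.orderIsoFinOfCardEq (Line d M) rfl).symm.toOrderEmbedding.trans (Fin.castLEOrderEmb hn)

open Classical in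
/-- The matrix on `Fin n`. -/
noncomputable def Amat (e : Line d M ↪o Fin n) (i j : Fin n) : Bool :=
  decide (∃ r c, e r = i ∧ e c = j ∧ entry r c = true)

lemma Amat_emb (e : Line d M ↪o Fin n) (r c : Line d M) : Amat e (e r) (e c) = entry r c := by
  classical
  by_cases h : entry r c = true
  · rw [h]
    simp only [Amat, decide_eq_true_eq]
    exact ⟨r, c, rfl, rfl, h⟩
  · have h' : entry r c = false := Bool.eq_false_of_not_eq_true h
    rw [h']
    simp only [Amat, decide_eq_false_iff_not, not_exists, not_and]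
    intro r' c' h1 h2
    rw [e.injective h1, e.injective h2]
    exact h

lemma Amat_true {e : Line d M ↪o Fin n} {i j : Fin n} (h : Amat e i j = true) :
    (∃ r, e r = i) ∧ (∃ c, e c = j) := by
  classical
  simp only [Amat, decide_eq_true_eq] at h
  obtain ⟨r, c, h1, h2, -⟩ := h
  exact ⟨⟨r, h1⟩, ⟨c, h2⟩⟩

/-- Far-ness on `Fin n`. -/
theorem far_transfer (hM : M = 2 * N) (hN : 0 < N) (hd : 2 ^ d = 8 * N) (e : Line d M ↪o Fin n)
    (B : Fin n → Fin n → Bool) (hB : orderedCopyCount Hpat B = 0) :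
    N ^ 2 ≤ (Finset.univ.filter (fun rc : Fin n × Fin n => Amat e rc.1 rc.2 ≠ B rc.1 rc.2)).card := by
  classical
  set B' : Line d M → Line d M → Bool := fun r c => B (e r) (e c) with hB'
  have hno : ¬ ∃ ρ κ : Fin 66 → Line d M, StrictMono ρ ∧ StrictMono κ ∧
      ∀ i j, B' (ρ i) (κ j) = Hpat i j := by
    rintro ⟨ρ, κ, h1, h2, h3⟩
    unfold orderedCopyCount at hB
    rw [Fintype.card_eq_zero_iff] at hB
    exact hB.false ⟨(fun i => e (ρ i), fun i => e (κ i)),
      fun i j h => e.strictMono (h1 h), fun i j h => e.strictMono (h2 h), h3⟩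
  have h1 := far hM hN hd B' hno
  refine h1.trans ?_
  apply Finset.card_le_card_of_injOn (fun rc => (e rc.1, e rc.2))
  · rintro ⟨r, c⟩ hrc
    have h2 := mem_flipSet.1 hrc
    simp only [Finset.coe_filter, Finset.mem_univ, true_and, Set.mem_ofPred_eq]
    rw [Amat_emb]
    exact fun h => h2 h.symm
  · rintro ⟨r, c⟩ - ⟨r', c'⟩ - h
    simp only [Prod.mk.injEq] at h
    rw [e.injective h.1, e.injective h.2]

lemma Fpat_row (p : Fin 33) : ∃ q, Fpat p q = true := by
  rcases Fin33_cases p with rfl | ⟨j, rfl⟩ | rfl | rfl | rfl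
  · exact ⟨0, by decide⟩
  · obtain ⟨m, h1, -⟩ := pick j j
    exact ⟨sg m, by simp [Ne.symm h1]⟩
  · exact ⟨0, by decide⟩
  · exact ⟨30, by decide⟩
  · exact ⟨0, by decide⟩

lemma Fpat_col (q : Fin 33) : ∃ p, Fpat p q = true := by
  rcases Fin33_cases q with rfl | ⟨j, rfl⟩ | rfl | rfl | rfl
  · exact ⟨0, by decide⟩
  · obtain ⟨m, h1, -⟩ := pick j j
    exact ⟨sg m, by simp [h1]⟩
  · exact ⟨0, by decide⟩
  · exact ⟨0, by decide⟩
  · exact ⟨0, by decide⟩

lemma Hpat_row (i : Fin 66) : ∃ j, Hpat i j = true := by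
  rcases Fin66_cases i with ⟨p, rfl⟩ | ⟨p, rfl⟩
  · obtain ⟨q, hq⟩ := Fpat_row p
    exact ⟨up q, by simpa using hq⟩
  · obtain ⟨q, hq⟩ := Fpat_col p
    exact ⟨dn q, by simpa using hq⟩

lemma Hpat_col (j : Fin 66) : ∃ i, Hpat i j = true := by
  rcases Fin66_cases j with ⟨q, rfl⟩ | ⟨q, rfl⟩
  · obtain ⟨p, hp⟩ := Fpat_col q
    exact ⟨up p, by simpa using hp⟩
  · obtain ⟨p, hp⟩ := Fpat_row q
    exact ⟨dn p, by simpa using hp⟩

/-- Generic counting with a constrained row-column pair and a constrained row. -/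
lemma count_le {n : ℕ} (K : Finset (Fin n × Fin n)) (Y : Finset (Fin n))
    (Q : (Fin 66 → Fin n) × (Fin 66 → Fin n) → Prop) [Fintype {rc // Q rc}]
    (hQ : ∀ rc, Q rc → (rc.1 (up 31), rc.2 (up 31)) ∈ K ∧ rc.1 (up 0) ∈ Y) :
    Fintype.card {rc // Q rc} ≤ K.card * Y.card * n ^ 129 := by
  classical
  let Φ : {rc // Q rc} → K × Y × ({i : Fin 66 // i ≠ up 31 ∧ i ≠ up 0} → Fin n) ×
      ({j : Fin 66 // j ≠ up 31} → Fin n) := fun rc =>
    (⟨_, (hQ rc.1 rc.2).1⟩, ⟨_, (hQ rc.1 rc.2).2⟩, fun i => rc.1.1 i.1, fun j => rc.1.2 j.1)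
  have hΦ : Function.Injective Φ := by
    rintro ⟨⟨a1, a2⟩, ha⟩ ⟨⟨b1, b2⟩, hb⟩ h
    simp only [Φ, Prod.mk.injEq, Subtype.mk.injEq] at h
    obtain ⟨⟨h1, h2⟩, h3, h4, h5⟩ := h
    apply Subtype.ext
    apply Prod.ext
    · funext i
      by_cases hi : i = up 31
      · rw [hi]; exact h1
      by_cases hi' : i = up 0
      · rw [hi']; exact h3
      exact congrFun h4 ⟨i, hi, hi'⟩
    · funext j
      by_cases hj : j = up 31
      · rw [hj]; exact h2
      exact congrFun h5 ⟨j, hj⟩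
  have h1 := Fintype.card_le_of_injective Φ hΦ
  have h2 : Fintype.card {i : Fin 66 // i ≠ up 31 ∧ i ≠ up 0} = 64 := by
    rw [Fintype.card_subtype]
    decide
  have h3 : Fintype.card {j : Fin 66 // j ≠ up 31} = 65 := by
    rw [Fintype.card_subtype]
    decide
  simp only [Fintype.card_prod, Fintype.card_coe, Fintype.card_fun, Fintype.card_fin, h2, h3] at h1
  calc _ ≤ _ := h1
    _ = K.card * Y.card * n ^ 129 := by ring

/-- The count on `Fin n`. -/
theorem count_transfer {M' : ℕ} (hd0 : 0 < d) (hM' : M' = M) (e : Line d M ↪o Fin n) :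
    orderedCopyCount Hpat (Amat e) ≤ (9 * 2 ^ d) * (2 * M) * n ^ 129 := by
  classical
  subst hM'
  let K : Finset (Fin n × Fin n) :=
    (Finset.univ : Finset (Fin 3 × Fin 3 × List.Vector Bool d)).image
      (fun t => (e (node ⟨Fin.last d, t.1, t.2.2⟩), e (node ⟨Fin.last d, t.2.1, t.2.2⟩)))
  let l₀ : Fin d := ⟨d - 1, by omega⟩
  let Y : Finset (Fin n) :=
    (Finset.univ : Finset (Bool × Fin M')).image (fun t => e (ty true l₀ t.1 t.2))
  have hK : K.card ≤ 9 * 2 ^ d := by
    refine Finset.card_image_le.trans (le_of_eq ?_)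
    simp [Finset.card_univ, card_vector]
    ring
  have hY : Y.card ≤ 2 * M' := by
    refine Finset.card_image_le.trans (le_of_eq ?_)
    simp [Finset.card_univ]
  have h1 : orderedCopyCount Hpat (Amat e) ≤ K.card * Y.card * n ^ 129 := by
    unfold orderedCopyCount
    apply count_le K Y
    rintro ⟨ρ, κ⟩ ⟨h1, h2, h3⟩
    simp only at h1 h2 h3 ⊢
    -- pull back the copy to the lines
    have hρ : ∀ i, ∃ r, e r = ρ i := by
      intro i
      obtain ⟨j, hj⟩ := Hpat_row i
      rw [← h3] at hj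
      exact (Amat_true hj).1
    have hκ : ∀ j, ∃ c, e c = κ j := by
      intro j
      obtain ⟨i, hi⟩ := Hpat_col j
      rw [← h3] at hi
      exact (Amat_true hi).2
    choose ρ' hρ' using hρ
    choose κ' hκ' using hκ
    have m1 : StrictMono ρ' := by
      intro i j h
      have := h1 h
      rw [← hρ', ← hρ'] at this
      exact e.lt_iff_lt.1 this
    have m2 : StrictMono κ' := by
      intro i j h
      have := h2 h
      rw [← hκ', ← hκ'] at this
      exact e.lt_iff_lt.1 this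
    have m3 : ∀ i j, entry (ρ' i) (κ' j) = Hpat i j := by
      intro i j
      rw [← h3, ← hρ', ← hκ', Amat_emb]
    obtain ⟨⟨P, P', π, hu, hv⟩, l, c, k, hl, hy⟩ := copy_critical m1 m2 m3
    constructor
    · rw [← hρ', ← hκ', hu, hv]
      exact Finset.mem_image.2 ⟨(P, P', π), Finset.mem_univ _, rfl⟩
    · rw [← hρ', hy]
      have : l = l₀ := Fin.ext (by show l.val = d - 1; omega)
      rw [this]
      exact Finset.mem_image.2 ⟨(c, k), Finset.mem_univ _, rfl⟩
  refine h1.trans ?_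
  exact Nat.mul_le_mul_right _ (Nat.mul_le_mul hK hY)

end Crest.Agent.S0066Lib
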