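import Crest.Agent.S0066Lib.Frame

/-! Fintype structure of the lines. -/

set_option autoImplicit false

namespace Crest.Agent.S0066Lib

open Line

variable {d M : ℕ}

/-- `Nd` as a product. -/
def Nd.equiv (d : ℕ) : Nd d ≃ Fin (d + 1) × Fin 3 × List.Vector Bool d where
  toFun x := (x.l, x.P, x.π)
  invFun t := ⟨t.1, t.2.1, t.2.2⟩
  left_inv _ := rfl
  right_inv _ := rfl

instance : Fintype (Nd d) := Fintype.ofEquiv _ (Nd.equiv d).symm

lemma Nd.card : Fintype.card (Nd d) = (d + 1) * (3 * 2 ^ d) := by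
  rw [Fintype.card_congr (Nd.equiv d)]
  simp [card_vector]

/-- Lines from a sum type. -/
def Line.ofSum : (Fin 33 × Fin M) ⊕ (Bool × Fin d × Bool × Fin M) ⊕ Fin M ⊕ (Fin 29 × Fin M) ⊕
    Fin M ⊕ Nd d ⊕ Fin M ⊕ Fin M ⊕ (Fin 33 × Fin M) → Line d M
  | .inl t => z1 t.1 t.2
  | .inr (.inl t) => ty t.1 t.2.1 t.2.2.1 t.2.2.2
  | .inr (.inr (.inl t)) => ty0 t
  | .inr (.inr (.inr (.inl t))) => sig t.1 t.2
  | .inr (.inr (.inr (.inr (.inl t)))) => x1 t
  | .inr (.inr (.inr (.inr (.inr (.inl t))))) => node t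
  | .inr (.inr (.inr (.inr (.inr (.inr (.inl t)))))) => x2 t
  | .inr (.inr (.inr (.inr (.inr (.inr (.inr (.inl t))))))) => x3 t
  | .inr (.inr (.inr (.inr (.inr (.inr (.inr (.inr t))))))) => z2 t.1 t.2

lemma Line.ofSum_surj : Function.Surjective (Line.ofSum (d := d) (M := M)) := by
  intro r
  cases r with
  | z1 p k => exact ⟨.inl (p, k), rfl⟩
  | ty f l c k => exact ⟨.inr (.inl (f, l, c, k)), rfl⟩
  | ty0 k => exact ⟨.inr (.inr (.inl k)), rfl⟩
  | sig j k => exact ⟨.inr (.inr (.inr (.inl (j, k)))), rfl⟩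
  | x1 k => exact ⟨.inr (.inr (.inr (.inr (.inl k)))), rfl⟩
  | node x => exact ⟨.inr (.inr (.inr (.inr (.inr (.inl x))))), rfl⟩
  | x2 k => exact ⟨.inr (.inr (.inr (.inr (.inr (.inr (.inl k)))))), rfl⟩
  | x3 k => exact ⟨.inr (.inr (.inr (.inr (.inr (.inr (.inr (.inl k))))))), rfl⟩
  | z2 p k => exact ⟨.inr (.inr (.inr (.inr (.inr (.inr (.inr (.inr (p, k)))))))), rfl⟩

noncomputable instance : Fintype (Line d M) := by
  classical
  exact Fintype.ofSurjective _ Line.ofSum_surj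

lemma Line.card_le : Fintype.card (Line d M) ≤
    33 * M + (2 * (d * (2 * M))) + M + 29 * M + M + (d + 1) * (3 * 2 ^ d) + M + M + 33 * M := by
  classical
  refine (Fintype.card_le_of_surjective _ Line.ofSum_surj).trans (le_of_eq ?_)
  simp only [Fintype.card_sum, Fintype.card_prod, Fintype.card_fin, Fintype.card_bool, Nd.card]
  ring

end Crest.Agent.S0066Lib
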