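import Crest.Agent.S0066Lib.Tree

/-! Location of a 29×29 co-identity in the matrix. -/

set_option autoImplicit false

namespace Crest.Agent.S0066Lib

open Line

variable {d M : ℕ}

lemma pick (i j : Fin 29) : ∃ m, m ≠ i ∧ m ≠ j := by
  have key : ∃ n : ℕ, n < 3 ∧ n ≠ i.val ∧ n ≠ j.val := by
    by_cases h0 : 0 ≠ i.val ∧ 0 ≠ j.val
    · exact ⟨0, by omega, h0⟩
    by_cases h1 : 1 ≠ i.val ∧ 1 ≠ j.val
    · exact ⟨1, by omega, h1⟩
    exact ⟨2, by omega, by omega, by omega⟩
  obtain ⟨n, h1, h2, h3⟩ := key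
  exact ⟨⟨n, by omega⟩, fun h => h2 (by rw [← h]), fun h => h3 (by rw [← h])⟩

lemma Fpat_true_iff (p q : Fin 33) : Fpat p q = true ↔
    (((1 ≤ p.val ∧ p.val ≤ 29) ∧ (1 ≤ q.val ∧ q.val ≤ 29) ∧ p.val ≠ q.val) ∨
     (¬ (1 ≤ p.val ∧ p.val ≤ 29) ∧ ¬ (1 ≤ q.val ∧ q.val ≤ 29) ∧
        ¬ (p.val = 31 ∧ (q.val = 0 ∨ q.val = 31)))) := by
  unfold Fpat
  split_ifs with h
  · simp only [decide_eq_true_eq, ne_eq, Fin.ext_iff]
    tauto
  · simp only [decide_eq_true_eq]
    tauto

lemma chain29 (f : Fin 29 → ℕ) (hf : StrictMono f) : f 0 + 28 ≤ f 28 := by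
  have key : ∀ n (h : n < 29), f 0 + n ≤ f ⟨n, h⟩ := by
    intro n
    induction n with
    | zero => intro h; exact le_refl _
    | succ n ih =>
      intro h
      have h1 := ih (by omega)
      have h2 : f ⟨n, by omega⟩ < f ⟨n + 1, h⟩ := hf (by simp [Fin.lt_def])
      omega
  exact key 28 (by omega)

/-- The co-identity inside the pattern `F`. -/
lemma coid_F (p q : Fin 29 → Fin 33)
    (hp : StrictMono fun i => (p i).val) (hq : StrictMono fun i => (q i).val)
    (he : ∀ i j, Fpat (p i) (q j) = decide (i ≠ j)) :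
    p 0 = sg 0 ∧ p 28 = sg 28 ∧ q 0 = sg 0 ∧ q 28 = sg 28 := by
  have hs : ∀ i j, i ≠ j → ((1 ≤ (p i).val ∧ (p i).val ≤ 29) ↔ (1 ≤ (q j).val ∧ (q j).val ≤ 29)) := by
    intro i j hij
    have h := he i j
    simp only [hij, ne_eq, not_false_eq_true, decide_true] at h
    have h' := (Fpat_true_iff _ _).1 h
    omega
  have hpp : ∀ i i', ((1 ≤ (p i).val ∧ (p i).val ≤ 29) ↔ (1 ≤ (p i').val ∧ (p i').val ≤ 29)) := by
    intro i i'
    obtain ⟨j, h1, h2⟩ := pick i i'
    exact (hs i j h1.symm).trans (hs i' j h2.symm).symm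
  have hqq : ∀ j, ((1 ≤ (q j).val ∧ (q j).val ≤ 29) ↔ (1 ≤ (p 0).val ∧ (p 0).val ≤ 29)) := by
    intro j
    obtain ⟨i, h1, -⟩ := pick j j
    exact (hs i j h1).symm.trans (hpp i 0)
  -- the frame has too few rows
  have hsig : 1 ≤ (p 0).val ∧ (p 0).val ≤ 29 := by
    by_contra hc
    have h0 : ∀ i, ¬ (1 ≤ (p i).val ∧ (p i).val ≤ 29) := fun i => by rwa [hpp i 0]
    have h01 : (p 0).val < (p 1).val := hp (by decide)
    have h12 : (p 1).val < (p 2).val := hp (by decide)
    have h23 : (p 2).val < (p 3).val := hp (by decide)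
    have h34 : (p 3).val < (p 4).val := hp (by decide)
    have b0 := h0 0
    have b1 := h0 1
    have b2 := h0 2
    have b3 := h0 3
    have b4 := h0 4
    have := (p 4).isLt
    omega
  have hpall : ∀ i, 1 ≤ (p i).val ∧ (p i).val ≤ 29 := fun i => (hpp i 0).2 hsig
  have hqall : ∀ j, 1 ≤ (q j).val ∧ (q j).val ≤ 29 := fun j => (hqq j).2 hsig
  have c1 := chain29 _ hp
  have c2 := chain29 _ hq
  have p0 := hpall 0
  have p28 := hpall 28
  have q0 := hqall 0
  have q28 := hqall 28
  refine ⟨Fin.ext ?_, Fin.ext ?_, Fin.ext ?_, Fin.ext ?_⟩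
  · show (p 0).val = 1
    omega
  · show (p 28).val = 29
    omega
  · show (q 0).val = 1
    omega
  · show (q 28).val = 29
    omega

/-- The co-identity inside the zone `sig`. -/
lemma coid_sig (p q : Fin 29 → Fin 29)
    (hp : StrictMono fun i => (p i).val) (hq : StrictMono fun i => (q i).val) :
    p 0 = 0 ∧ p 28 = 28 ∧ q 0 = 0 ∧ q 28 = 28 := by
  have c1 := chain29 _ hp
  have c2 := chain29 _ hq
  have h1 := (p 28).isLt
  have h2 := (q 28).isLt
  refine ⟨Fin.ext ?_, Fin.ext ?_, Fin.ext ?_, Fin.ext ?_⟩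
  · show (p 0).val = 0
    omega
  · show (p 28).val = 28
    omega
  · show (q 0).val = 0
    omega
  · show (q 28).val = 28
    omega

lemma tag_eq0 {r : Line d M} (h : tag r = 0) : ∃ p k, r = z1 p k := by
  cases r <;> simp [tag] at h; exact ⟨_, _, rfl⟩
lemma tag_eq3 {r : Line d M} (h : tag r = 3) : ∃ p k, r = sig p k := by
  cases r <;> simp [tag] at h; exact ⟨_, _, rfl⟩
lemma tag_eq5 {r : Line d M} (h : tag r = 5) : ∃ x, r = node x := by
  cases r <;> simp [tag] at h; exact ⟨_, rfl⟩
lemma tag_eq8 {r : Line d M} (h : tag r = 8) : ∃ p k, r = z2 p k := by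
  cases r <;> simp [tag] at h; exact ⟨_, _, rfl⟩
lemma tag_eq4 {r : Line d M} (h : tag r = 4) : ∃ k, r = x1 k := by
  cases r <;> simp [tag] at h; exact ⟨_, rfl⟩
lemma tag_eq6 {r : Line d M} (h : tag r = 6) : ∃ k, r = x2 k := by
  cases r <;> simp [tag] at h; exact ⟨_, rfl⟩
lemma tag_eq7 {r : Line d M} (h : tag r = 7) : ∃ k, r = x3 k := by
  cases r <;> simp [tag] at h; exact ⟨_, rfl⟩

lemma z1_lt {p p' : Fin 33} {k k' : Fin M} (h : (z1 p k : Line d M) < z1 p' k') :
    p.val ≤ p'.val := by
  have h' := lt_def.1 h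
  simp only [key] at h'
  rcases List.cons_lt_cons_iff.1 h' with h1 | ⟨-, h1⟩
  · omega
  rcases List.cons_lt_cons_iff.1 h1 with h2 | ⟨h2, -⟩
  · omega
  · omega

lemma z2_lt {p p' : Fin 33} {k k' : Fin M} (h : (z2 p k : Line d M) < z2 p' k') :
    p.val ≤ p'.val := by
  have h' := lt_def.1 h
  simp only [key] at h'
  rcases List.cons_lt_cons_iff.1 h' with h1 | ⟨-, h1⟩
  · omega
  rcases List.cons_lt_cons_iff.1 h1 with h2 | ⟨h2, -⟩
  · omega
  · omega

lemma sig_lt {p p' : Fin 29} {k k' : Fin M} (h : (sig p k : Line d M) < sig p' k') :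
    p.val ≤ p'.val := by
  have h' := lt_def.1 h
  simp only [key] at h'
  rcases List.cons_lt_cons_iff.1 h' with h1 | ⟨-, h1⟩
  · omega
  rcases List.cons_lt_cons_iff.1 h1 with h2 | ⟨h2, -⟩
  · omega
  · omega

lemma same_row_of_tag_x1 {r r' : Line d M} (h : tag r = 4) (h' : tag r' = 4) (c : Line d M) :
    entry r c = entry r' c := by
  obtain ⟨k, rfl⟩ := tag_eq4 h
  obtain ⟨k', rfl⟩ := tag_eq4 h'
  cases c <;> rfl

lemma same_row_of_tag_x2 {r r' : Line d M} (h : tag r = 6) (h' : tag r' = 6) (c : Line d M) :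
    entry r c = entry r' c := by
  obtain ⟨k, rfl⟩ := tag_eq6 h
  obtain ⟨k', rfl⟩ := tag_eq6 h'
  cases c <;> rfl

lemma same_col_of_tag_x2 {r r' : Line d M} (h : tag r = 6) (h' : tag r' = 6) (c : Line d M) :
    entry c r = entry c r' := by
  obtain ⟨k, rfl⟩ := tag_eq6 h
  obtain ⟨k', rfl⟩ := tag_eq6 h'
  cases c <;> rfl

lemma same_col_of_tag_x3 {r r' : Line d M} (h : tag r = 7) (h' : tag r' = 7) (c : Line d M) :
    entry c r = entry c r' := by
  obtain ⟨k, rfl⟩ := tag_eq7 h
  obtain ⟨k', rfl⟩ := tag_eq7 h'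
  cases c <;> rfl

/-! ### Typed lines -/

/-- The kind of a typed line. -/
def tyCode : Line d M → Option (Bool × ℕ × Bool)
  | ty f l c _ => some (f, l.val, c)
  | _ => none

lemma same_row_of_tyCode {r r' : Line d M} (h : tag r = 1 ∨ tag r = 2) (h' : tag r' = 1 ∨ tag r' = 2)
    (hc : tyCode r = tyCode r') (c : Line d M) : entry r c = entry r' c := by
  cases r <;> simp [tag] at h <;> cases r' <;> simp [tag] at h' <;> simp [tyCode] at hc
  · obtain ⟨rfl, hl, rfl⟩ := hc
    have : _ = _ := Fin.ext hl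
    subst this
    cases c <;> rfl
  · cases c <;> rfl

lemma same_col_of_tyCode {r r' : Line d M} (h : tag r = 1 ∨ tag r = 2) (h' : tag r' = 1 ∨ tag r' = 2)
    (hc : tyCode r = tyCode r') (c : Line d M) : entry c r = entry c r' := by
  cases r <;> simp [tag] at h <;> cases r' <;> simp [tag] at h' <;> simp [tyCode] at hc
  · obtain ⟨rfl, hl, rfl⟩ := hc
    have : _ = _ := Fin.ext hl
    subst this
    cases c <;> rfl
  · cases c <;> rfl

lemma ty_pigeon_core (t : Fin 10 → Line d M) (x : Nd d)
    (h : ∀ i, (∃ f l c k, t i = ty f l c k ∧ tyE f l c x = true) ∨ (∃ k, t i = ty0 k)) :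
    ∃ i j, i ≠ j ∧ tyCode (t i) = tyCode (t j) := by
  classical
  let φ : Line d M → Option (Bool × Bool × Bool) := fun r =>
    match r with
    | ty f l c _ => some (f, c, decide (l.val = x.l.val))
    | _ => none
  obtain ⟨i, j, hij, hφ⟩ := Fintype.exists_ne_map_eq_of_card_lt (fun i => φ (t i))
    (by simp)
  refine ⟨i, j, hij, ?_⟩
  rcases h i with ⟨f, l, c, k, hi, hti⟩ | ⟨k, hi⟩ <;>
    rcases h j with ⟨f', l', c', k', hj, htj⟩ | ⟨k', hj⟩ <;>
    simp only [hi, hj, φ] at hφ ⊢
  · simp only [Option.some.injEq, Prod.mk.injEq] at hφ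
    obtain ⟨rfl, rfl, h3⟩ := hφ
    simp only [tyCode, Option.some.injEq, Prod.mk.injEq, true_and, and_true]
    simp only [tyE, decide_eq_true_eq] at hti htj
    by_cases h4 : l.val = x.l.val
    · have h5 : l'.val = x.l.val := by simpa [h4] using h3
      omega
    · have h5 : ¬ l'.val = x.l.val := by simpa [h4] using h3
      rcases hti with hti | hti <;> rcases htj with htj | htj <;> omega
  · simp at hφ
  · simp at hφ
  · rfl

lemma ty_cases {r : Line d M} (h : tag r = 1 ∨ tag r = 2) :
    (∃ f l c k, r = ty f l c k) ∨ (∃ k, r = ty0 k) := by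
  cases r <;> simp [tag] at h
  · exact Or.inl ⟨_, _, _, _, rfl⟩
  · exact Or.inr ⟨_, rfl⟩

lemma ty_pigeon_row (t : Fin 10 → Line d M) (ht : ∀ i, tag (t i) = 1 ∨ tag (t i) = 2)
    (e : Line d M) (he : ∀ i, entry (t i) e = true) :
    ∃ i j, i ≠ j ∧ ∀ c, entry (t i) c = entry (t j) c := by
  have hne : (0 : Fin 10) ≠ 1 := by decide
  suffices h : ∃ i j, i ≠ j ∧ tyCode (t i) = tyCode (t j) by
    obtain ⟨i, j, hij, hc⟩ := h
    exact ⟨i, j, hij, same_row_of_tyCode (ht i) (ht j) hc⟩
  have two : ∀ o : Option (Bool × ℕ × Bool), (∀ i, tyCode (t i) = o) →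
      ∃ i j, i ≠ j ∧ tyCode (t i) = tyCode (t j) :=
    fun o h => ⟨0, 1, hne, by rw [h, h]⟩
  have none' : (∀ i f l c k, t i = ty f l c k → entry (t i) e = false) →
      ∃ i j, i ≠ j ∧ tyCode (t i) = tyCode (t j) := by
    intro h
    apply two none
    intro i
    rcases ty_cases (ht i) with ⟨f, l, c, k, h3⟩ | ⟨k, h3⟩
    · have := h i f l c k h3
      rw [he i] at this
      exact Bool.noConfusion this
    · rw [h3]; rfl
  cases e with
  | ty f l c k =>
    apply two (some (!f, l.val, c))
    intro i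
    rcases ty_cases (ht i) with ⟨f', l', c', k', h3⟩ | ⟨k', h3⟩ <;>
      have h1 := he i <;> rw [h3] at h1 <;> simp [entry] at h1
    obtain ⟨rfl, rfl, h4⟩ := h1
    rw [h3]
    simp only [tyCode, Option.some.injEq, Prod.mk.injEq, and_true]
    rcases h4 with ⟨rfl, rfl⟩ | ⟨rfl, rfl, -⟩ <;> simp
  | ty0 k => exact none' (fun i f l c k' h => by rw [h]; rfl)
  | x2 k => exact none' (fun i f l c k' h => by rw [h]; rfl)
  | x3 k => exact none' (fun i f l c k' h => by rw [h]; rfl)
  | node x =>
    apply ty_pigeon_core t x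
    intro i
    rcases ty_cases (ht i) with ⟨f', l', c', k', h3⟩ | ⟨k', h3⟩
    · have h1 := he i
      rw [h3] at h1
      exact Or.inl ⟨_, _, _, _, h3, by simpa [entry] using h1⟩
    · exact Or.inr ⟨_, h3⟩
  | z1 _ _ =>
    have h1 := he 0
    rcases ty_cases (ht 0) with ⟨f', l', c', k', h3⟩ | ⟨k', h3⟩ <;> rw [h3] at h1 <;>
      simp [entry] at h1
  | sig _ _ =>
    have h1 := he 0
    rcases ty_cases (ht 0) with ⟨f', l', c', k', h3⟩ | ⟨k', h3⟩ <;> rw [h3] at h1 <;>
      simp [entry] at h1
  | x1 _ =>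
    have h1 := he 0
    rcases ty_cases (ht 0) with ⟨f', l', c', k', h3⟩ | ⟨k', h3⟩ <;> rw [h3] at h1 <;>
      simp [entry] at h1
  | z2 _ _ =>
    have h1 := he 0
    rcases ty_cases (ht 0) with ⟨f', l', c', k', h3⟩ | ⟨k', h3⟩ <;> rw [h3] at h1 <;>
      simp [entry] at h1

lemma ty_pigeon_col (t : Fin 10 → Line d M) (ht : ∀ i, tag (t i) = 1 ∨ tag (t i) = 2)
    (e : Line d M) (he : ∀ i, entry e (t i) = true) :
    ∃ i j, i ≠ j ∧ ∀ c, entry c (t i) = entry c (t j) := by
  have hne : (0 : Fin 10) ≠ 1 := by decide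
  suffices h : ∃ i j, i ≠ j ∧ tyCode (t i) = tyCode (t j) by
    obtain ⟨i, j, hij, hc⟩ := h
    exact ⟨i, j, hij, same_col_of_tyCode (ht i) (ht j) hc⟩
  have two : ∀ o : Option (Bool × ℕ × Bool), (∀ i, tyCode (t i) = o) →
      ∃ i j, i ≠ j ∧ tyCode (t i) = tyCode (t j) :=
    fun o h => ⟨0, 1, hne, by rw [h, h]⟩
  have none' : (∀ i f l c k, t i = ty f l c k → entry e (t i) = false) →
      ∃ i j, i ≠ j ∧ tyCode (t i) = tyCode (t j) := by
    intro h
    apply two none
    intro i
    rcases ty_cases (ht i) with ⟨f, l, c, k, h3⟩ | ⟨k, h3⟩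
    · have := h i f l c k h3
      rw [he i] at this
      exact Bool.noConfusion this
    · rw [h3]; rfl
  cases e with
  | ty f l c k =>
    apply two (some (!f, l.val, c))
    intro i
    rcases ty_cases (ht i) with ⟨f', l', c', k', h3⟩ | ⟨k', h3⟩ <;>
      have h1 := he i <;> rw [h3] at h1 <;> simp [entry] at h1
    obtain ⟨rfl, rfl, h4⟩ := h1
    rw [h3]
    simp only [tyCode, Option.some.injEq, Prod.mk.injEq, and_true]
    rcases h4 with ⟨rfl, rfl⟩ | ⟨rfl, rfl, -⟩ <;> simp
  | ty0 k => exact none' (fun i f l c k' h => by rw [h]; rfl)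
  | x1 k => exact none' (fun i f l c k' h => by rw [h]; rfl)
  | x2 k => exact none' (fun i f l c k' h => by rw [h]; rfl)
  | node x =>
    apply ty_pigeon_core t x
    intro i
    rcases ty_cases (ht i) with ⟨f', l', c', k', h3⟩ | ⟨k', h3⟩
    · have h1 := he i
      rw [h3] at h1
      exact Or.inl ⟨_, _, _, _, h3, by simpa [entry] using h1⟩
    · have h1 := he i
      rw [h3] at h1
      simp [entry] at h1
  | z1 _ _ =>
    have h1 := he 0
    rcases ty_cases (ht 0) with ⟨f', l', c', k', h3⟩ | ⟨k', h3⟩ <;> rw [h3] at h1 <;>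
      simp [entry] at h1
  | sig _ _ =>
    have h1 := he 0
    rcases ty_cases (ht 0) with ⟨f', l', c', k', h3⟩ | ⟨k', h3⟩ <;> rw [h3] at h1 <;>
      simp [entry] at h1
  | x3 _ =>
    have h1 := he 0
    rcases ty_cases (ht 0) with ⟨f', l', c', k', h3⟩ | ⟨k', h3⟩ <;> rw [h3] at h1 <;>
      simp [entry] at h1
  | z2 _ _ =>
    have h1 := he 0
    rcases ty_cases (ht 0) with ⟨f', l', c', k', h3⟩ | ⟨k', h3⟩ <;> rw [h3] at h1 <;>
      simp [entry] at h1

section coid

variable {a b : Fin 29 → Line d M} (ha : StrictMono a) (hb : StrictMono b)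
  (he : ∀ i j, entry (a i) (b j) = decide (i ≠ j))

include he in
lemma coid_one {i j : Fin 29} (h : i ≠ j) : entry (a i) (b j) = true := by
  rw [he]; simpa using h

include he in
lemma coid_zero (i : Fin 29) : entry (a i) (b i) = false := by
  rw [he]; simp

include he in
lemma coid_row_inj {i j : Fin 29} (h : ∀ c, entry (a i) c = entry (a j) c) : i = j := by
  by_contra hij
  have h1 := coid_zero he i
  have h2 := coid_one he (Ne.symm hij)
  rw [h, h2] at h1
  exact Bool.noConfusion h1

include he in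
lemma coid_col_inj {i j : Fin 29} (h : ∀ c, entry c (b i) = entry c (b j)) : i = j := by
  by_contra hij
  have h1 := coid_zero he i
  have h2 := coid_one he hij
  rw [h, h2] at h1
  exact Bool.noConfusion h1

include he in
lemma coid_supp {i j : Fin 29} (h : i ≠ j) : Supp (tag (a i)) (tag (b j)) :=
  supp_of_entry (coid_one he h)

include ha hb he in
/-- No co-identity in the middle zone. -/
lemma no_mid
    (hP : ∀ i, tag (a i) = 1 ∨ tag (a i) = 2 ∨ tag (a i) = 4 ∨ tag (a i) = 5 ∨ tag (a i) = 6)
    (hQ : ∀ i, tag (b i) = 1 ∨ tag (b i) = 2 ∨ tag (b i) = 5 ∨ tag (b i) = 6 ∨ tag (b i) = 7) :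
    False := by
  have emb : ∀ i : Fin 10, (Fin.castLE (by omega) i : Fin 29) ≤ 9 := by
    intro i
    have := i.isLt
    simp [Fin.le_def]
    omega
  have embne : ∀ i : Fin 10, (Fin.castLE (by omega) i : Fin 29) ≠ 28 := by
    intro i
    have := i.isLt
    simp [Fin.ext_iff]
    omega
  have embinj : ∀ {i j : Fin 10}, (Fin.castLE (by omega) i : Fin 29) = Fin.castLE (by omega) j →
      i = j := by
    intro i j h
    simpa [Fin.ext_iff] using h
  -- Step A
  have stepA : 4 ≤ tag (a 9) := by
    by_contra hc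
    obtain ⟨i, j, hij, hs⟩ := ty_pigeon_row (fun i : Fin 10 => a (Fin.castLE (by omega) i))
      (by
        intro i
        have h1 := tag_mono ha (emb i)
        have h2 := hP (Fin.castLE (by omega) i)
        show tag _ = 1 ∨ tag _ = 2
        omega)
      (b 28) (fun i => coid_one he (embne i))
    exact hij (embinj (coid_row_inj he hs))
  have stepB : 5 ≤ tag (b 9) := by
    by_contra hc
    obtain ⟨i, j, hij, hs⟩ := ty_pigeon_col (fun i : Fin 10 => b (Fin.castLE (by omega) i))
      (by
        intro i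
        have h1 := tag_mono hb (emb i)
        have h2 := hQ (Fin.castLE (by omega) i)
        show tag _ = 1 ∨ tag _ = 2
        have h3 := hQ 9
        omega)
      (a 28) (fun i => coid_one he (Ne.symm (embne i)))
    exact hij (embinj (coid_col_inj he hs))
  have stepC : 5 ≤ tag (a 10) := by
    by_contra hc
    have h1 : tag (a 9) ≤ tag (a 10) := tag_mono ha (by decide)
    have h2 : tag (a 9) = 4 := by omega
    have h3 : tag (a 10) = 4 := by have := hP 10; omega
    have := coid_row_inj he (same_row_of_tag_x1 h2 h3)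
    exact absurd this (by decide)
  have stepD : tag (a 27) ≤ 5 := by
    by_contra hc
    have h1 : tag (a 27) ≤ tag (a 28) := tag_mono ha (by decide)
    have h2 := hP 27
    have h3 := hP 28
    have h4 : tag (a 27) = 6 := by omega
    have h5 : tag (a 28) = 6 := by omega
    have := coid_row_inj he (same_row_of_tag_x2 h4 h5)
    exact absurd this (by decide)
  have stepE : tag (b 26) ≤ 5 := by
    by_contra hc
    have h1 : tag (b 26) ≤ tag (b 27) := tag_mono hb (by decide)
    have h2 : tag (b 27) ≤ tag (b 28) := tag_mono hb (by decide)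
    have h3 := hQ 26
    have h4 := hQ 27
    have h5 := hQ 28
    by_cases h6 : tag (b 26) = tag (b 27)
    · have h7 : tag (b 26) = 6 ∨ tag (b 26) = 7 := by omega
      rcases h7 with h7 | h7
      · have := coid_col_inj (i := 26) (j := 27) he (same_col_of_tag_x2 h7 (by omega))
        exact absurd this (by decide)
      · have := coid_col_inj (i := 26) (j := 27) he (same_col_of_tag_x3 h7 (by omega))
        exact absurd this (by decide)
    · have h7 : tag (b 27) = 7 := by omega
      have h8 : tag (b 28) = 7 := by omega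
      have := coid_col_inj he (same_col_of_tag_x3 h7 h8)
      exact absurd this (by decide)
  have ta10 : tag (a 10) = 5 := by
    have : tag (a 10) ≤ tag (a 27) := tag_mono ha (by decide)
    omega
  have ta11 : tag (a 11) = 5 := by
    have h1 : tag (a 10) ≤ tag (a 11) := tag_mono ha (by decide)
    have h2 : tag (a 11) ≤ tag (a 27) := tag_mono ha (by decide)
    omega
  have ta12 : tag (a 12) = 5 := by
    have h1 : tag (a 10) ≤ tag (a 12) := tag_mono ha (by decide)
    have h2 : tag (a 12) ≤ tag (a 27) := tag_mono ha (by decide)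
    omega
  have tb10 : tag (b 10) = 5 := by
    have h1 : tag (b 9) ≤ tag (b 10) := tag_mono hb (by decide)
    have h2 : tag (b 10) ≤ tag (b 26) := tag_mono hb (by decide)
    omega
  have tb11 : tag (b 11) = 5 := by
    have h1 : tag (b 9) ≤ tag (b 11) := tag_mono hb (by decide)
    have h2 : tag (b 11) ≤ tag (b 26) := tag_mono hb (by decide)
    omega
  have tb12 : tag (b 12) = 5 := by
    have h1 : tag (b 9) ≤ tag (b 12) := tag_mono hb (by decide)
    have h2 : tag (b 12) ≤ tag (b 26) := tag_mono hb (by decide)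
    omega
  obtain ⟨x1', hx1⟩ := tag_eq5 ta10
  obtain ⟨x2', hx2⟩ := tag_eq5 ta11
  obtain ⟨x3', hx3⟩ := tag_eq5 ta12
  obtain ⟨y1, hy1⟩ := tag_eq5 tb10
  obtain ⟨y2, hy2⟩ := tag_eq5 tb11
  obtain ⟨y3, hy3⟩ := tag_eq5 tb12
  have E : ∀ (i j : Fin 29) (x y : Nd d), a i = node x → b j = node y →
      nodeE x y = decide (i ≠ j) := by
    intro i j x y h1 h2
    have := he i j
    rw [h1, h2] at this
    simpa [entry] using this
  refine no_coid3_nd (a1 := x1') (a2 := x2') (a3 := x3') (b1 := y1) (b2 := y2) (b3 := y3)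
    ?_ ?_ ?_ ?_ ?_ ?_ ?_ ?_ ?_
  · rw [E 10 11 _ _ hx1 hy2]; decide
  · rw [E 10 12 _ _ hx1 hy3]; decide
  · rw [E 11 10 _ _ hx2 hy1]; decide
  · rw [E 11 12 _ _ hx2 hy3]; decide
  · rw [E 12 10 _ _ hx3 hy1]; decide
  · rw [E 12 11 _ _ hx3 hy2]; decide
  · rw [E 10 10 _ _ hx1 hy1]; decide
  · rw [E 11 11 _ _ hx2 hy2]; decide
  · rw [E 12 12 _ _ hx3 hy3]; decide

include ha hb he in
/-- Location of a 29×29 co-identity. -/
theorem coid_location :
    (∃ k0 k28 k0' k28', a 0 = z1 (sg 0) k0 ∧ a 28 = z1 (sg 28) k28 ∧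
        b 0 = z1 (sg 0) k0' ∧ b 28 = z1 (sg 28) k28') ∨
    (∃ k0 k28 k0' k28', a 0 = sig 0 k0 ∧ a 28 = sig 28 k28 ∧
        b 0 = sig 0 k0' ∧ b 28 = sig 28 k28') ∨
    (∃ k0 k28 k0' k28', a 0 = z2 (sg 0) k0 ∧ a 28 = z2 (sg 28) k28 ∧
        b 0 = z2 (sg 0) k0' ∧ b 28 = z2 (sg 28) k28') := by
  have hsup : ∀ {i j}, i ≠ j → Supp (tag (a i)) (tag (b j)) := fun h => coid_supp he h
  -- blocks
  have hrc : ∀ i j, i ≠ j → (((tag (a i) = 0 ∨ tag (a i) = 8) ↔ (tag (b j) = 0 ∨ tag (b j) = 8)) ∧
      (tag (a i) = 3 ↔ tag (b j) = 3)) := by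
    intro i j hij
    have h1 := hsup hij
    simp only [Supp] at h1
    omega
  have hrr : ∀ i i', (((tag (a i) = 0 ∨ tag (a i) = 8) ↔ (tag (a i') = 0 ∨ tag (a i') = 8)) ∧
      (tag (a i) = 3 ↔ tag (a i') = 3)) := by
    intro i i'
    obtain ⟨j, h1, h2⟩ := pick i i'
    have h3 := hrc i j (Ne.symm h1)
    have h4 := hrc i' j (Ne.symm h2)
    omega
  have hcc : ∀ j, (((tag (b j) = 0 ∨ tag (b j) = 8) ↔ (tag (a 0) = 0 ∨ tag (a 0) = 8)) ∧
      (tag (b j) = 3 ↔ tag (a 0) = 3)) := by
    intro j
    obtain ⟨i, h1, -⟩ := pick j j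
    have h3 := hrc i j h1
    have h4 := hrr i 0
    omega
  by_cases hO : tag (a 0) = 0 ∨ tag (a 0) = 8
  · -- outer block
    have hA : ∀ i, tag (a i) = 0 ∨ tag (a i) = 8 := fun i => (hrr 0 i).1.1 hO
    have hB : ∀ j, tag (b j) = 0 ∨ tag (b j) = 8 := fun j => (hcc j).1.2 hO
    by_cases h0 : tag (a 0) = 0
    · -- everything in `z1`
      have hzero : ∀ i, tag (a i) = 0 → tag (b i) = 0 := by
        intro i hi
        obtain ⟨p, k, hp⟩ := tag_eq0 hi
        have h1 := coid_zero he i
        rcases hB i with h | h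
        · exact h
        · obtain ⟨q, k', hq⟩ := tag_eq8 h
          rw [hp, hq] at h1
          simp [entry] at h1
      have hb0 := hzero 0 h0
      have hAall : ∀ i, tag (a i) = 0 := by
        intro i
        by_contra hi
        have hi8 : tag (a i) = 8 := by have := hA i; omega
        have hne : i ≠ 0 := by
          rintro rfl
          exact hi h0
        have h1 := hsup hne
        simp only [Supp] at h1
        omega
      have hBall : ∀ i, tag (b i) = 0 := fun i => hzero i (hAall i)
      left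
      choose p k hp using fun i => tag_eq0 (hAall i)
      choose q k' hq using fun i => tag_eq0 (hBall i)
      have hE : ∀ i j, Fpat (p i) (q j) = decide (i ≠ j) := by
        intro i j
        have := he i j
        rwa [hp, hq] at this
      have hpm : StrictMono fun i => (p i).val := by
        intro i j hij
        have h1 := ha hij
        rw [hp, hp] at h1
        have h2 := z1_lt h1
        have h3 : p i ≠ p j := by
          intro h4
          have h5 := hE i i
          rw [h4, hE j i] at h5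
          simp at h5
          exact (ne_of_gt hij) h5
        have h4 : (p i).val ≠ (p j).val := fun h => h3 (Fin.ext h)
        simp only
        omega
      have hqm : StrictMono fun i => (q i).val := by
        intro i j hij
        have h1 := hb hij
        rw [hq, hq] at h1
        have h2 := z1_lt h1
        have h3 : q i ≠ q j := by
          intro h4
          have h5 := hE i i
          rw [h4, hE i j] at h5
          simp at h5
          exact (ne_of_lt hij) h5
        have h4 : (q i).val ≠ (q j).val := fun h => h3 (Fin.ext h)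
        simp only
        omega
      obtain ⟨h1, h2, h3, h4⟩ := coid_F p q hpm hqm hE
      exact ⟨k 0, k 28, k' 0, k' 28, by rw [hp, h1], by rw [hp, h2], by rw [hq, h3], by rw [hq, h4]⟩
    · -- everything in `z2`
      have h8 : tag (a 0) = 8 := by have := hA 0; omega
      have hAall : ∀ i, tag (a i) = 8 := by
        intro i
        have h1 : tag (a 0) ≤ tag (a i) := tag_mono ha (Fin.zero_le _)
        have := hA i
        omega
      have hBall : ∀ j, tag (b j) = 8 := by
        intro j
        obtain ⟨i, h1, -⟩ := pick j j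
        have h2 := hsup h1
        have h3 := hAall i
        simp only [Supp] at h2
        omega
      right; right
      choose p k hp using fun i => tag_eq8 (hAall i)
      choose q k' hq using fun i => tag_eq8 (hBall i)
      have hE : ∀ i j, Fpat (q i) (p j) = decide (i ≠ j) := by
        intro i j
        have := he j i
        rw [hp, hq] at this
        simpa [entry, ne_comm] using this
      have hpm : StrictMono fun i => (p i).val := by
        intro i j hij
        have h1 := ha hij
        rw [hp, hp] at h1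
        have h2 := z2_lt h1
        have h3 : p i ≠ p j := by
          intro h4
          have h5 := hE i i
          rw [h4, hE i j] at h5
          simp at h5
          exact (ne_of_lt hij) h5
        have h4 : (p i).val ≠ (p j).val := fun h => h3 (Fin.ext h)
        simp only
        omega
      have hqm : StrictMono fun i => (q i).val := by
        intro i j hij
        have h1 := hb hij
        rw [hq, hq] at h1
        have h2 := z2_lt h1
        have h3 : q i ≠ q j := by
          intro h4
          have h5 := hE i i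
          rw [h4, hE j i] at h5
          simp at h5
          exact (ne_of_gt hij) h5
        have h4 : (q i).val ≠ (q j).val := fun h => h3 (Fin.ext h)
        simp only
        omega
      obtain ⟨h1, h2, h3, h4⟩ := coid_F q p hqm hpm hE
      exact ⟨k 0, k 28, k' 0, k' 28, by rw [hp, h3], by rw [hp, h4], by rw [hq, h1], by rw [hq, h2]⟩
  · by_cases hS : tag (a 0) = 3
    · -- sig block
      have hAall : ∀ i, tag (a i) = 3 := fun i => (hrr 0 i).2.1 hS
      have hBall : ∀ j, tag (b j) = 3 := fun j => (hcc j).2.2 hS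
      right; left
      choose p k hp using fun i => tag_eq3 (hAall i)
      choose q k' hq using fun i => tag_eq3 (hBall i)
      have hE : ∀ i j, (p i ≠ q j) ↔ (i ≠ j) := by
        intro i j
        have := he i j
        rw [hp, hq] at this
        exact decide_eq_decide.1 this
      have hpq : ∀ i, p i = q i := by
        intro i
        by_contra h
        exact ((hE i i).1 h) rfl
      have hinj : ∀ {i j}, p i = p j → i = j := by
        intro i j h
        by_contra hij
        exact (hE j i).2 (Ne.symm hij) (by rw [← h, hpq])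
      have hpm : StrictMono fun i => (p i).val := by
        intro i j hij
        have h1 := ha hij
        rw [hp, hp] at h1
        have h2 := sig_lt h1
        have h4 : (p i).val ≠ (p j).val := fun h => (ne_of_lt hij) (hinj (Fin.ext h))
        simp only
        omega
      have hqm : StrictMono fun i => (q i).val := by
        intro i j hij
        have := hpm hij
        simp only [hpq] at this
        exact this
      obtain ⟨h1, h2, h3, h4⟩ := coid_sig p q hpm hqm
      exact ⟨k 0, k 28, k' 0, k' 28, by rw [hp, h1], by rw [hp, h2], by rw [hq, h3], by rw [hq, h4]⟩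
    · -- middle block
      exfalso
      refine no_mid ha hb he ?_ ?_
      · intro i
        obtain ⟨j, h1, -⟩ := pick i i
        have h2 := hsup (Ne.symm h1)
        have h3 := hrr 0 i
        simp only [Supp] at h2
        omega
      · intro j
        obtain ⟨i, h1, -⟩ := pick j j
        have h2 := hsup h1
        have h3 := hcc j
        simp only [Supp] at h2
        omega

end coid

end Crest.Agent.S0066Lib
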