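import Crest.Agent.S0066Lib.Card

/-! Assembling copies of `H`. -/

set_option autoImplicit false

namespace Crest.Agent.S0066Lib

open Line

variable {d M : ℕ}

/-- gluing two blocks -/
def glue {α : Type} (b1 b2 : Fin 33 → α) (i : Fin 66) : α :=
  if h : i.val < 33 then b1 ⟨i.val, h⟩ else b2 ⟨i.val - 33, by omega⟩

@[simp] lemma glue_up {α : Type} (b1 b2 : Fin 33 → α) (p : Fin 33) : glue b1 b2 (up p) = b1 p := by
  simp [glue, up]

@[simp] lemma glue_dn {α : Type} (b1 b2 : Fin 33 → α) (p : Fin 33) : glue b1 b2 (dn p) = b2 p := by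
  simp [glue, dn]

lemma glue_strictMono {α : Type} [Preorder α] {b1 b2 : Fin 33 → α} (h1 : StrictMono b1)
    (h2 : StrictMono b2) (h : b1 32 < b2 0) : StrictMono (glue b1 b2) := by
  intro i j hij
  rcases Fin66_cases i with ⟨p, rfl⟩ | ⟨p, rfl⟩ <;> rcases Fin66_cases j with ⟨q, rfl⟩ | ⟨q, rfl⟩
  · simp only [glue_up]
    have h3 : p.val < q.val := hij
    exact h1 h3
  · simp only [glue_up, glue_dn]
    exact lt_of_le_of_lt (h1.monotone (Fin.le_last p)) (lt_of_lt_of_le h (h2.monotone (Fin.zero_le q)))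
  · exfalso
    have h3 : 33 + p.val < q.val := hij
    have := q.isLt
    omega
  · simp only [glue_dn]
    have h3 : 33 + p.val < 33 + q.val := hij
    exact h2 (show p.val < q.val by omega)

/-- A block with a frame in the middle zone. -/
def midB (y x₁ u x₂ : Line d M) (s : Fin M) (p : Fin 33) : Line d M :=
  if p.val = 0 then y else if h : p.val ≤ 29 then sig ⟨p.val - 1, by omega⟩ s
  else if p.val = 30 then x₁ else if p.val = 31 then u else x₂

section
variable (y x₁ u x₂ : Line d M) (s : Fin M)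
@[simp] lemma midB_0 : midB y x₁ u x₂ s 0 = y := rfl
@[simp] lemma midB_30 : midB y x₁ u x₂ s 30 = x₁ := rfl
@[simp] lemma midB_31 : midB y x₁ u x₂ s 31 = u := rfl
@[simp] lemma midB_32 : midB y x₁ u x₂ s 32 = x₂ := rfl
@[simp] lemma midB_sg (j : Fin 29) : midB y x₁ u x₂ s (sg j) = sig j s := by
  have hj := j.isLt
  have h1 : ¬ (sg j).val = 0 := by simp
  have h2 : (sg j).val ≤ 29 := by simp
  simp only [midB, if_neg h1, dif_pos h2]
  rfl
end

lemma sig_lt_sig {i j : Fin 29} (h : i < j) (s : Fin M) : (sig i s : Line d M) < sig j s := by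
  rw [lt_def]
  simp only [key]
  exact List.cons_lt_cons_iff.2 (Or.inr ⟨rfl, List.cons_lt_cons_iff.2 (Or.inl h)⟩)

lemma z1_lt_z1 {i j : Fin 33} (h : i < j) (s : Fin M) : (z1 i s : Line d M) < z1 j s := by
  rw [lt_def]
  simp only [key]
  exact List.cons_lt_cons_iff.2 (Or.inr ⟨rfl, List.cons_lt_cons_iff.2 (Or.inl h)⟩)

lemma z2_lt_z2 {i j : Fin 33} (h : i < j) (s : Fin M) : (z2 i s : Line d M) < z2 j s := by
  rw [lt_def]
  simp only [key]
  exact List.cons_lt_cons_iff.2 (Or.inr ⟨rfl, List.cons_lt_cons_iff.2 (Or.inl h)⟩)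

lemma midB_strictMono {y x₁ u x₂ : Line d M} {s : Fin M} (hy : y < sig 0 s) (hx : sig 28 s < x₁)
    (h12 : x₁ < u) (h23 : u < x₂) : StrictMono (midB y x₁ u x₂ s) := by
  rw [Fin.strictMono_iff_lt_succ]
  intro i
  have key : ∀ p q : Fin 33, p.val + 1 = q.val → midB y x₁ u x₂ s p < midB y x₁ u x₂ s q := by
    intro p q hpq
    rcases Fin33_cases p with rfl | ⟨j, rfl⟩ | rfl | rfl | rfl
    · have : q = sg 0 := Fin.ext (by simpa using hpq.symm)
      rw [this, midB_0, midB_sg]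
      exact hy
    · by_cases hj : j.val = 28
      · have h1 : q = 30 := Fin.ext (by simp only [sg_val] at hpq; show q.val = 30; omega)
        have h2 : j = 28 := Fin.ext (by simpa using hj)
        rw [h1, h2, midB_30, midB_sg]
        exact hx
      · have hj' := j.isLt
        have h1 : q = sg ⟨j.val + 1, by omega⟩ :=
          Fin.ext (by simp only [sg_val] at hpq ⊢; omega)
        rw [h1, midB_sg, midB_sg]
        exact sig_lt_sig (by simp [Fin.lt_def]) s
    · have h1 : q = 31 := Fin.ext (by have : (30 : Fin 33).val = 30 := rfl; show q.val = 31; omega)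
      rw [h1, midB_30, midB_31]
      exact h12
    · have h1 : q = 32 := Fin.ext (by have : (31 : Fin 33).val = 31 := rfl; show q.val = 32; omega)
      rw [h1, midB_31, midB_32]
      exact h23
    · exfalso
      have : (32 : Fin 33).val = 32 := rfl
      have := q.isLt
      omega
  exact key _ _ (by simp)

/-- Lines in the middle zone, outside of the `sig` lines. -/
def Mid (r : Line d M) : Prop := tag r ≠ 0 ∧ tag r ≠ 3 ∧ tag r ≠ 8

lemma entry_mid_z1 {r : Line d M} (h : Mid r) (q : Fin 33) (k : Fin M) : entry r (z1 q k) = false := by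
  by_contra hc
  have := supp_of_entry (Bool.eq_true_of_not_eq_false hc)
  have h0 : tag (z1 q k : Line d M) = 0 := rfl
  simp only [Supp, Mid] at this h
  omega

lemma entry_mid_z2 {r : Line d M} (h : Mid r) (q : Fin 33) (k : Fin M) : entry r (z2 q k) = false := by
  by_contra hc
  have := supp_of_entry (Bool.eq_true_of_not_eq_false hc)
  have h0 : tag (z2 q k : Line d M) = 8 := rfl
  simp only [Supp, Mid] at this h
  omega

lemma entry_mid_sig {r : Line d M} (h : Mid r) (q : Fin 29) (k : Fin M) : entry r (sig q k) = false := by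
  by_contra hc
  have := supp_of_entry (Bool.eq_true_of_not_eq_false hc)
  have h0 : tag (sig q k : Line d M) = 3 := rfl
  simp only [Supp, Mid] at this h
  omega

lemma entry_z1_mid {r : Line d M} (h : Mid r) (q : Fin 33) (k : Fin M) : entry (z1 q k) r = false := by
  by_contra hc
  have := supp_of_entry (Bool.eq_true_of_not_eq_false hc)
  have h0 : tag (z1 q k : Line d M) = 0 := rfl
  simp only [Supp, Mid] at this h
  omega

lemma entry_z2_mid {r : Line d M} (h : Mid r) (q : Fin 33) (k : Fin M) : entry (z2 q k) r = false := by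
  by_contra hc
  have := supp_of_entry (Bool.eq_true_of_not_eq_false hc)
  have h0 : tag (z2 q k : Line d M) = 8 := rfl
  simp only [Supp, Mid] at this h
  omega

lemma entry_sig_mid {r : Line d M} (h : Mid r) (q : Fin 29) (k : Fin M) : entry (sig q k) r = false := by
  by_contra hc
  have := supp_of_entry (Bool.eq_true_of_not_eq_false hc)
  have h0 : tag (sig q k : Line d M) = 3 := rfl
  simp only [Supp, Mid] at this h
  omega

/-- The cells between two middle blocks. -/
lemma mid_cell {B : Line d M → Line d M → Bool} {s s' : Fin M} {y x₁ u x₂ w g₁ v g₂ : Line d M}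
    (pat : Fin 33 → Fin 33 → Bool)
    (hss : ∀ i j, B (sig i s) (sig j s') = pat (sg i) (sg j))
    (hs0 : ∀ i, B (sig i s) w = pat (sg i) 0) (hs1 : ∀ i, B (sig i s) g₁ = pat (sg i) 30)
    (hsv : ∀ i, B (sig i s) v = pat (sg i) 31) (hs2 : ∀ i, B (sig i s) g₂ = pat (sg i) 32)
    (h0s : ∀ i, B y (sig i s') = pat 0 (sg i)) (h1s : ∀ i, B x₁ (sig i s') = pat 30 (sg i))
    (hus : ∀ i, B u (sig i s') = pat 31 (sg i)) (h2s : ∀ i, B x₂ (sig i s') = pat 32 (sg i))
    (h00 : B y w = pat 0 0) (h01 : B y g₁ = pat 0 30) (h0v : B y v = pat 0 31)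
    (h02 : B y g₂ = pat 0 32)
    (h10 : B x₁ w = pat 30 0) (h11 : B x₁ g₁ = pat 30 30) (h1v : B x₁ v = pat 30 31)
    (h12 : B x₁ g₂ = pat 30 32)
    (hu0 : B u w = pat 31 0) (hu1 : B u g₁ = pat 31 30) (huv : B u v = pat 31 31)
    (hu2 : B u g₂ = pat 31 32)
    (h20 : B x₂ w = pat 32 0) (h21 : B x₂ g₁ = pat 32 30) (h2v : B x₂ v = pat 32 31)
    (h22 : B x₂ g₂ = pat 32 32) (p q : Fin 33) :
    B (midB y x₁ u x₂ s p) (midB w g₁ v g₂ s' q) = pat p q := by
  rcases Fin33_cases p with rfl | ⟨j, rfl⟩ | rfl | rfl | rfl <;>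
    rcases Fin33_cases q with rfl | ⟨j', rfl⟩ | rfl | rfl | rfl <;>
    simp only [midB_0, midB_sg, midB_30, midB_31, midB_32] <;> first | assumption | apply_assumption

lemma frame0 : IsFrame 0 := Or.inl rfl
lemma frame30 : IsFrame 30 := Or.inr (Or.inl rfl)
lemma frame31 : IsFrame 31 := Or.inr (Or.inr (Or.inl rfl))
lemma frame32 : IsFrame 32 := Or.inr (Or.inr (Or.inr rfl))

/-- Slices. -/
def sl (code : List.Vector Bool d → ℕ) : Line d M → ℕ
  | z1 _ k => k
  | ty _ _ _ k => k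
  | ty0 k => k
  | sig _ k => k
  | x1 k => k
  | node x => if x.l.val = 0 then code x.π else M
  | x2 k => k
  | x3 k => k
  | z2 _ k => k

/-- Copy with the frame in the middle zone and `Fᵀ` in `z2`. -/
theorem copy_A {B : Line d M → Line d M → Bool} {code : List.Vector Bool d → ℕ} {s s' : Fin M}
    {y x₁ u x₂ w g₁ v g₂ : Line d M}
    (hS : ∀ r c, sl code r = s → sl code c = s' → B r c = entry r c)
    (hyS : sl code y = s) (hwS : sl code w = s')
    (r1 : ∀ c, sl code c = s' → B x₁ c = entry x₁ c) (ru : ∀ c, sl code c = s' → B u c = entry u c)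
    (r2 : ∀ c, sl code c = s' → B x₂ c = entry x₂ c)
    (c1 : ∀ r, sl code r = s → B r g₁ = entry r g₁) (cv : ∀ r, sl code r = s → B r v = entry r v)
    (c2 : ∀ r, sl code r = s → B r g₂ = entry r g₂)
    (my : Mid y) (m1 : Mid x₁) (mu : Mid u) (m2 : Mid x₂)
    (mw : Mid w) (mg1 : Mid g₁) (mv : Mid v) (mg2 : Mid g₂)
    (oy : y < sig 0 s) (ox : sig 28 s < x₁) (o12 : x₁ < u) (o23 : u < x₂)
    (ow : w < sig 0 s') (og : sig 28 s' < g₁) (o45 : g₁ < v) (o56 : v < g₂)
    (eyw : entry y w = true) (ey1 : entry y g₁ = true) (eyv : entry y v = true)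
    (ey2 : entry y g₂ = true) (e1w : entry x₁ w = true) (euw : entry u w = false)
    (e2w : entry x₂ w = true)
    (b11 : B x₁ g₁ = true) (b1v : B x₁ v = true) (b12 : B x₁ g₂ = true)
    (bu1 : B u g₁ = true) (buv : B u v = false) (bu2 : B u g₂ = true)
    (b21 : B x₂ g₁ = true) (b2v : B x₂ v = true) (b22 : B x₂ g₂ = true) :
    ∃ ρ κ : Fin 66 → Line d M, StrictMono ρ ∧ StrictMono κ ∧ ∀ i j, B (ρ i) (κ j) = Hpat i j := by
  have z2mono : ∀ s : Fin M, StrictMono (fun p : Fin 33 => (z2 p s : Line d M)) :=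
    fun s p q h => z2_lt_z2 h s
  have tagz : ∀ {r : Line d M} (p : Fin 33) (k : Fin M), Mid r → r < z2 p k := by
    intro r p k h
    apply lt_of_tag_lt
    show tag r < 8
    have : tag r ≠ 8 := h.2.2
    cases r <;> simp [tag] at this ⊢
  refine ⟨glue (midB y x₁ u x₂ s) (fun p => z2 p s), glue (midB w g₁ v g₂ s') (fun p => z2 p s'),
    glue_strictMono (midB_strictMono oy ox o12 o23) (z2mono s) (by simpa using tagz 0 s m2),
    glue_strictMono (midB_strictMono ow og o45 o56) (z2mono s') (by simpa using tagz 0 s' mg2), ?_⟩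
  intro i j
  rcases Fin66_cases i with ⟨p, rfl⟩ | ⟨p, rfl⟩ <;> rcases Fin66_cases j with ⟨q, rfl⟩ | ⟨q, rfl⟩
  · simp only [glue_up, Hpat_up_up]
    refine mid_cell Fpat ?_ ?_ ?_ ?_ ?_ ?_ ?_ ?_ ?_ ?_ ?_ ?_ ?_ ?_ ?_ ?_ ?_ ?_ ?_ ?_ ?_ ?_ ?_ ?_ ?_ p q
    · intro i j
      rw [hS _ _ rfl rfl]
      simp [entry]
    · intro i
      rw [hS _ _ rfl hwS, entry_sig_mid mw, Fpat_sg_frame _ frame0]
    · intro i
      rw [c1 _ rfl, entry_sig_mid mg1, Fpat_sg_frame _ frame30]
    · intro i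
      rw [cv _ rfl, entry_sig_mid mv, Fpat_sg_frame _ frame31]
    · intro i
      rw [c2 _ rfl, entry_sig_mid mg2, Fpat_sg_frame _ frame32]
    · intro i
      rw [hS _ _ hyS rfl, entry_mid_sig my, Fpat_frame_sg _ frame0]
    · intro i
      rw [r1 _ rfl, entry_mid_sig m1, Fpat_frame_sg _ frame30]
    · intro i
      rw [ru _ rfl, entry_mid_sig mu, Fpat_frame_sg _ frame31]
    · intro i
      rw [r2 _ rfl, entry_mid_sig m2, Fpat_frame_sg _ frame32]
    · rw [hS _ _ hyS hwS, eyw]; decide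
    · rw [c1 _ hyS, ey1]; decide
    · rw [cv _ hyS, eyv]; decide
    · rw [c2 _ hyS, ey2]; decide
    · rw [r1 _ hwS, e1w]; decide
    · rw [b11]; decide
    · rw [b1v]; decide
    · rw [b12]; decide
    · rw [ru _ hwS, euw]; decide
    · rw [bu1]; decide
    · rw [buv]; decide
    · rw [bu2]; decide
    · rw [r2 _ hwS, e2w]; decide
    · rw [b21]; decide
    · rw [b2v]; decide
    · rw [b22]; decide
  · simp only [glue_up, glue_dn, Hpat_up_dn]
    rcases Fin33_cases p with rfl | ⟨j, rfl⟩ | rfl | rfl | rfl <;>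
      simp only [midB_0, midB_sg, midB_30, midB_31, midB_32]
    · rw [hS _ _ hyS rfl, entry_mid_z2 my]
    · rw [hS _ _ rfl rfl]; simp [entry]
    · rw [r1 _ rfl, entry_mid_z2 m1]
    · rw [ru _ rfl, entry_mid_z2 mu]
    · rw [r2 _ rfl, entry_mid_z2 m2]
  · simp only [glue_up, glue_dn, Hpat_dn_up]
    rcases Fin33_cases q with rfl | ⟨j, rfl⟩ | rfl | rfl | rfl <;>
      simp only [midB_0, midB_sg, midB_30, midB_31, midB_32]
    · rw [hS _ _ rfl hwS, entry_z2_mid mw]
    · rw [hS _ _ rfl rfl]; simp [entry]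
    · rw [c1 _ rfl, entry_z2_mid mg1]
    · rw [cv _ rfl, entry_z2_mid mv]
    · rw [c2 _ rfl, entry_z2_mid mg2]
  · simp only [glue_dn, Hpat_dn_dn]
    rw [hS _ _ rfl rfl]
    rfl

/-- Copy with `F` in `z1` and the transposed frame in the middle zone. -/
theorem copy_B {B : Line d M → Line d M → Bool} {code : List.Vector Bool d → ℕ} {s s' : Fin M}
    {y x₁ u x₂ w g₁ v g₂ : Line d M}
    (hS : ∀ r c, sl code r = s → sl code c = s' → B r c = entry r c)
    (hyS : sl code y = s) (hwS : sl code w = s')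
    (r1 : ∀ c, sl code c = s' → B x₁ c = entry x₁ c) (ru : ∀ c, sl code c = s' → B u c = entry u c)
    (r2 : ∀ c, sl code c = s' → B x₂ c = entry x₂ c)
    (c1 : ∀ r, sl code r = s → B r g₁ = entry r g₁) (cv : ∀ r, sl code r = s → B r v = entry r v)
    (c2 : ∀ r, sl code r = s → B r g₂ = entry r g₂)
    (my : Mid y) (m1 : Mid x₁) (mu : Mid u) (m2 : Mid x₂)
    (mw : Mid w) (mg1 : Mid g₁) (mv : Mid v) (mg2 : Mid g₂)
    (oy : y < sig 0 s) (ox : sig 28 s < x₁) (o12 : x₁ < u) (o23 : u < x₂)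
    (ow : w < sig 0 s') (og : sig 28 s' < g₁) (o45 : g₁ < v) (o56 : v < g₂)
    (eyw : entry y w = true) (ey1 : entry y g₁ = true) (eyv : entry y v = false)
    (ey2 : entry y g₂ = true) (e1w : entry x₁ w = true) (euw : entry u w = true)
    (e2w : entry x₂ w = true)
    (b11 : B x₁ g₁ = true) (b1v : B x₁ v = true) (b12 : B x₁ g₂ = true)
    (bu1 : B u g₁ = true) (buv : B u v = false) (bu2 : B u g₂ = true)
    (b21 : B x₂ g₁ = true) (b2v : B x₂ v = true) (b22 : B x₂ g₂ = true) :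
    ∃ ρ κ : Fin 66 → Line d M, StrictMono ρ ∧ StrictMono κ ∧ ∀ i j, B (ρ i) (κ j) = Hpat i j := by
  have z1mono : ∀ s : Fin M, StrictMono (fun p : Fin 33 => (z1 p s : Line d M)) :=
    fun s p q h => z1_lt_z1 h s
  have tagz : ∀ {r : Line d M} (p : Fin 33) (k : Fin M), Mid r → z1 p k < r := by
    intro r p k h
    apply lt_of_tag_lt
    show 0 < tag r
    have : tag r ≠ 0 := h.1
    omega
  refine ⟨glue (fun p => z1 p s) (midB y x₁ u x₂ s), glue (fun p => z1 p s') (midB w g₁ v g₂ s'),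
    glue_strictMono (z1mono s) (midB_strictMono oy ox o12 o23) (by simpa using tagz 32 s my),
    glue_strictMono (z1mono s') (midB_strictMono ow og o45 o56) (by simpa using tagz 32 s' mw), ?_⟩
  intro i j
  rcases Fin66_cases i with ⟨p, rfl⟩ | ⟨p, rfl⟩ <;> rcases Fin66_cases j with ⟨q, rfl⟩ | ⟨q, rfl⟩
  · simp only [glue_up, Hpat_up_up]
    rw [hS _ _ rfl rfl]
    rfl
  · simp only [glue_up, glue_dn, Hpat_up_dn]
    rcases Fin33_cases q with rfl | ⟨j, rfl⟩ | rfl | rfl | rfl <;>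
      simp only [midB_0, midB_sg, midB_30, midB_31, midB_32]
    · rw [hS _ _ rfl hwS, entry_z1_mid mw]
    · rw [hS _ _ rfl rfl]; simp [entry]
    · rw [c1 _ rfl, entry_z1_mid mg1]
    · rw [cv _ rfl, entry_z1_mid mv]
    · rw [c2 _ rfl, entry_z1_mid mg2]
  · simp only [glue_up, glue_dn, Hpat_dn_up]
    rcases Fin33_cases p with rfl | ⟨j, rfl⟩ | rfl | rfl | rfl <;>
      simp only [midB_0, midB_sg, midB_30, midB_31, midB_32]
    · rw [hS _ _ hyS rfl, entry_mid_z1 my]
    · rw [hS _ _ rfl rfl]; simp [entry]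
    · rw [r1 _ rfl, entry_mid_z1 m1]
    · rw [ru _ rfl, entry_mid_z1 mu]
    · rw [r2 _ rfl, entry_mid_z1 m2]
  · simp only [glue_dn, Hpat_dn_dn]
    refine mid_cell (fun p q => Fpat q p) ?_ ?_ ?_ ?_ ?_ ?_ ?_ ?_ ?_ ?_ ?_ ?_ ?_ ?_ ?_ ?_ ?_ ?_ ?_ ?_ ?_ ?_ ?_ ?_ ?_ p q
    · intro i j
      rw [hS _ _ rfl rfl]
      simp [entry, ne_comm]
    · intro i
      rw [hS _ _ rfl hwS, entry_sig_mid mw, Fpat_frame_sg _ frame0]
    · intro i
      rw [c1 _ rfl, entry_sig_mid mg1, Fpat_frame_sg _ frame30]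
    · intro i
      rw [cv _ rfl, entry_sig_mid mv, Fpat_frame_sg _ frame31]
    · intro i
      rw [c2 _ rfl, entry_sig_mid mg2, Fpat_frame_sg _ frame32]
    · intro i
      rw [hS _ _ hyS rfl, entry_mid_sig my, Fpat_sg_frame _ frame0]
    · intro i
      rw [r1 _ rfl, entry_mid_sig m1, Fpat_sg_frame _ frame30]
    · intro i
      rw [ru _ rfl, entry_mid_sig mu, Fpat_sg_frame _ frame31]
    · intro i
      rw [r2 _ rfl, entry_mid_sig m2, Fpat_sg_frame _ frame32]
    · rw [hS _ _ hyS hwS, eyw]; decide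
    · rw [c1 _ hyS, ey1]; decide
    · rw [cv _ hyS, eyv]; decide
    · rw [c2 _ hyS, ey2]; decide
    · rw [r1 _ hwS, e1w]; decide
    · rw [b11]; decide
    · rw [b1v]; decide
    · rw [b12]; decide
    · rw [ru _ hwS, euw]; decide
    · rw [bu1]; decide
    · rw [buv]; decide
    · rw [bu2]; decide
    · rw [r2 _ hwS, e2w]; decide
    · rw [b21]; decide
    · rw [b2v]; decide
    · rw [b22]; decide

end Crest.Agent.S0066Lib
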