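import Crest.Agent.S0066Lib.Lists

/-! Definitions for S0066: the pattern `H`, the lines and the matrix `entry`. -/

set_option autoImplicit false

namespace Crest.Agent.S0066Lib

/-! ### The pattern -/

/-- `F` on `Fin 33`: indices `1..29` carry the co-identity, indices `0,30,31,32` carry the frame
which is all ones except at row `31`, columns `0,31`. -/
def Fpat (p q : Fin 33) : Bool :=
  if 1 ≤ p.val ∧ p.val ≤ 29 then
    (1 ≤ q.val ∧ q.val ≤ 29) ∧ p ≠ q
  else
    ¬ (1 ≤ q.val ∧ q.val ≤ 29) ∧ ¬ (p.val = 31 ∧ (q.val = 0 ∨ q.val = 31))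

/-- upper block index -/
def up (p : Fin 33) : Fin 66 := ⟨p.val, by omega⟩
/-- lower block index -/
def dn (p : Fin 33) : Fin 66 := ⟨33 + p.val, by omega⟩
/-- index of the co-identity -/
def sg (j : Fin 29) : Fin 33 := ⟨j.val + 1, by omega⟩

/-- The pattern `H = diag(F, Fᵀ)`. -/
def Hpat (i j : Fin 66) : Bool :=
  if h : i.val < 33 then
    if h' : j.val < 33 then Fpat ⟨i.val, h⟩ ⟨j.val, h'⟩ else false
  else
    if h' : j.val < 33 then false
    else Fpat ⟨j.val - 33, by omega⟩ ⟨i.val - 33, by omega⟩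

@[simp] lemma Hpat_up_up (p q : Fin 33) : Hpat (up p) (up q) = Fpat p q := by
  simp [Hpat, up]
@[simp] lemma Hpat_dn_dn (p q : Fin 33) : Hpat (dn p) (dn q) = Fpat q p := by
  simp [Hpat, dn]
@[simp] lemma Hpat_up_dn (p q : Fin 33) : Hpat (up p) (dn q) = false := by
  simp [Hpat, up, dn]
@[simp] lemma Hpat_dn_up (p q : Fin 33) : Hpat (dn p) (up q) = false := by
  simp [Hpat, up, dn]

lemma Fin66_cases (i : Fin 66) : (∃ p, i = up p) ∨ (∃ p, i = dn p) := by
  by_cases h : i.val < 33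
  · exact Or.inl ⟨⟨i.val, h⟩, by ext; simp [up]⟩
  · exact Or.inr ⟨⟨i.val - 33, by omega⟩, by ext; simp [dn]; omega⟩

lemma Fin33_cases (p : Fin 33) :
    p = 0 ∨ (∃ j, p = sg j) ∨ p = 30 ∨ p = 31 ∨ p = 32 := by
  by_cases h1 : p.val = 0
  · exact Or.inl (Fin.ext h1)
  by_cases h2 : p.val ≤ 29
  · exact Or.inr (Or.inl ⟨⟨p.val - 1, by omega⟩, by ext; simp [sg]; omega⟩)
  by_cases h3 : p.val = 30
  · exact Or.inr (Or.inr (Or.inl (Fin.ext h3)))
  by_cases h4 : p.val = 31
  · exact Or.inr (Or.inr (Or.inr (Or.inl (Fin.ext h4))))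
  exact Or.inr (Or.inr (Or.inr (Or.inr (Fin.ext (by simp; omega)))))

@[simp] lemma sg_val (j : Fin 29) : (sg j).val = j.val + 1 := rfl

lemma sg_inj {i j : Fin 29} : sg i = sg j ↔ i = j := by
  simp [sg, Fin.ext_iff]

@[simp] lemma Fpat_sg_sg (i j : Fin 29) : Fpat (sg i) (sg j) = decide (i ≠ j) := by
  have hi := i.isLt
  have hj := j.isLt
  have h1 : 1 ≤ (sg i).val ∧ (sg i).val ≤ 29 := by simp
  have h2 : 1 ≤ (sg j).val ∧ (sg j).val ≤ 29 := by simp
  simp only [Fpat, if_pos h1]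
  simp [sg_inj]

/-- Is `p` a frame index? -/
def IsFrame (p : Fin 33) : Prop := p = 0 ∨ p = 30 ∨ p = 31 ∨ p = 32

lemma Fpat_sg_frame (j : Fin 29) {q : Fin 33} (hq : IsFrame q) : Fpat (sg j) q = false := by
  have hj := j.isLt
  have h1 : 1 ≤ (sg j).val ∧ (sg j).val ≤ 29 := by simp
  simp only [Fpat, if_pos h1]
  rcases hq with rfl | rfl | rfl | rfl <;> simp

lemma Fpat_frame_sg (j : Fin 29) {p : Fin 33} (hp : IsFrame p) : Fpat p (sg j) = false := by
  have hj := j.isLt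
  have h1 : 1 ≤ (sg j).val ∧ (sg j).val ≤ 29 := by simp
  have h2 : ¬ (1 ≤ p.val ∧ p.val ≤ 29) := by
    rcases hp with rfl | rfl | rfl | rfl <;> simp
  simp only [Fpat, if_neg h2]
  simp [h1]

/-! ### Lines -/

/-- A node line: depth `l`, part `P`, leaf `π`. -/
structure Nd (d : ℕ) where
  l : Fin (d + 1)
  P : Fin 3
  π : List.Vector Bool d

/-- The part digit. -/
def pd (P : Fin 3) : ℕ := 2 * P.val

/-- Class `c` of parts. -/
def inClass (c : Bool) (P : Fin 3) : Prop := if c then P.val ≠ 0 else P.val ≠ 2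

instance (c : Bool) (P : Fin 3) : Decidable (inClass c P) := by
  unfold inClass; split <;> infer_instance

/-- The prefix of a node line. -/
def Nd.pre {d : ℕ} (x : Nd d) : List Bool := x.π.toList.take x.l

/-- The key of a node line. -/
def Nd.key {d : ℕ} (x : Nd d) : List ℕ := nk x.l (pd x.P) x.π.toList

/-- Comparability of two nodes, as agreement of the leaf words up to the smaller depth. -/
def nodeComp {d : ℕ} (x y : Nd d) : Prop :=
  x.π.toList.take (min x.l.val y.l.val) = y.π.toList.take (min x.l.val y.l.val)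

instance {d : ℕ} (x y : Nd d) : Decidable (nodeComp x y) := by
  unfold nodeComp; infer_instance

/-- Entry between node lines: comparable and not both at the leaf level. -/
def nodeE {d : ℕ} (x y : Nd d) : Bool :=
  decide (nodeComp x y ∧ ¬ (x.l.val = d ∧ y.l.val = d))

/-- Entry between a typed line and a node line. -/
def tyE {d : ℕ} (f : Bool) (l : Fin d) (c : Bool) (x : Nd d) : Bool :=
  decide ((x.l.val = l.val ∧ inClass c x.P) ∨ (f = true ∧ x.l.val = l.val + 1))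

/-- The lines, used both as rows and as columns. -/
inductive Line (d M : ℕ) : Type
  | z1 (p : Fin 33) (k : Fin M)
  | ty (f : Bool) (l : Fin d) (c : Bool) (k : Fin M)
  | ty0 (k : Fin M)
  | sig (j : Fin 29) (k : Fin M)
  | x1 (k : Fin M)
  | node (x : Nd d)
  | x2 (k : Fin M)
  | x3 (k : Fin M)
  | z2 (p : Fin 33) (k : Fin M)

namespace Line
variable {d M : ℕ}

/-- The zone of a line. -/
def tag : Line d M → ℕ
  | z1 _ _ => 0
  | ty _ _ _ _ => 1
  | ty0 _ => 2
  | sig _ _ => 3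
  | x1 _ => 4
  | node _ => 5
  | x2 _ => 6
  | x3 _ => 7
  | z2 _ _ => 8

/-- The key of a line. -/
def key : Line d M → List ℕ
  | z1 p k => [0, p, k]
  | ty f l c k => [1, f.toNat, l, c.toNat, k]
  | ty0 k => [2, k]
  | sig j k => [3, j, k]
  | x1 k => [4, k]
  | node x => 5 :: x.key
  | x2 k => [6, k]
  | x3 k => [7, k]
  | z2 p k => [8, p, k]

lemma pd_even (P : Fin 3) : pd P % 2 = 0 := by simp [pd]

lemma pd_inj {P Q : Fin 3} (h : pd P = pd Q) : P = Q := by
  simp only [pd] at h; ext; omega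

lemma Nd.key_inj {x y : Nd d} (h : x.key = y.key) : x = y := by
  obtain ⟨l, P, π⟩ := x
  obtain ⟨l', P', π'⟩ := y
  have := nk_inj _ _ _ _ _ _ (by simpa using l.is_le) (by simpa using l'.is_le)
    (pd_even P) (pd_even P') h
  obtain ⟨h1, h2, h3⟩ := this
  have h4 : l = l' := Fin.ext h1
  have h5 := pd_inj h2
  have h6 : π = π' := List.Vector.eq _ _ h3
  subst h4 h5 h6
  rfl

lemma key_injective : Function.Injective (key : Line d M → List ℕ) := by
  intro a b h
  cases a <;> cases b <;> simp [key] at h ⊢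
  · exact ⟨Fin.ext h.1, Fin.ext h.2⟩
  · obtain ⟨h1, h2, h3, h4⟩ := h
    refine ⟨?_, Fin.ext h2, ?_, Fin.ext h4⟩
    · revert h1; cases ‹Bool› <;> cases ‹Bool› <;> simp
    · revert h3; cases ‹Bool› <;> cases ‹Bool› <;> simp
  · exact Fin.ext h
  · exact ⟨Fin.ext h.1, Fin.ext h.2⟩
  · exact Fin.ext h
  · exact Nd.key_inj h
  · exact Fin.ext h
  · exact Fin.ext h
  · exact ⟨Fin.ext h.1, Fin.ext h.2⟩

noncomputable instance : LinearOrder (Line d M) := LinearOrder.lift' key key_injective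

lemma lt_def {a b : Line d M} : a < b ↔ key a < key b := Iff.rfl

lemma key_eq_tag_cons (a : Line d M) : ∃ r, key a = tag a :: r := by
  cases a <;> exact ⟨_, rfl⟩

lemma tag_le_of_lt {a b : Line d M} (h : a < b) : tag a ≤ tag b := by
  obtain ⟨r, hr⟩ := key_eq_tag_cons a
  obtain ⟨s, hs⟩ := key_eq_tag_cons b
  have := lt_def.1 h
  rw [hr, hs] at this
  rcases List.cons_lt_cons_iff.1 this with h' | ⟨h', _⟩
  · exact h'.le
  · exact h'.le

lemma lt_of_tag_lt {a b : Line d M} (h : tag a < tag b) : a < b := by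
  obtain ⟨r, hr⟩ := key_eq_tag_cons a
  obtain ⟨s, hs⟩ := key_eq_tag_cons b
  rw [lt_def, hr, hs]
  exact List.cons_lt_cons_iff.2 (Or.inl h)

lemma tag_mono {n : ℕ} {f : Fin n → Line d M} (hf : StrictMono f) {i j : Fin n} (h : i ≤ j) :
    tag (f i) ≤ tag (f j) := by
  rcases h.lt_or_eq with h | rfl
  · exact tag_le_of_lt (hf h)
  · exact le_rfl

/-- The matrix. -/
def entry : Line d M → Line d M → Bool
  | z1 p _, z1 q _ => Fpat p q
  | z1 _ _, z2 _ _ => true
  | z2 p _, z2 q _ => Fpat q p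
  | sig i _, sig j _ => decide (i ≠ j)
  | ty f l c _, ty f' l' c' _ =>
      decide (l = l' ∧ c = c' ∧ ((f = true ∧ f' = false) ∨ (f = false ∧ f' = true ∧ l.val + 1 < d)))
  | ty f l c _, node x => tyE f l c x
  | ty0 _, ty0 _ => true
  | ty0 _, node x => decide (x.l.val = d)
  | ty0 _, x2 _ => true
  | ty0 _, x3 _ => true
  | x1 _, ty0 _ => true
  | x1 _, node x => decide (x.l.val = d)
  | x1 _, x2 _ => true
  | x1 _, x3 _ => true
  | x2 _, ty0 _ => true
  | x2 _, node x => decide (x.l.val = d)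
  | x2 _, x2 _ => true
  | x2 _, x3 _ => true
  | node x, ty f l c _ => tyE f l c x
  | node x, node y => nodeE x y
  | node x, x3 _ => decide (x.l.val = d)
  | _, _ => false

/-- Support of the matrix in terms of tags. -/
def Supp (t t' : ℕ) : Prop :=
  (t = 0 ∧ (t' = 0 ∨ t' = 8)) ∨ (t = 1 ∧ (t' = 1 ∨ t' = 5)) ∨
  (t = 2 ∧ (t' = 2 ∨ t' = 5 ∨ t' = 6 ∨ t' = 7)) ∨ (t = 3 ∧ t' = 3) ∨
  (t = 4 ∧ (t' = 2 ∨ t' = 5 ∨ t' = 6 ∨ t' = 7)) ∨ (t = 5 ∧ (t' = 1 ∨ t' = 5 ∨ t' = 7)) ∨
  (t = 6 ∧ (t' = 2 ∨ t' = 5 ∨ t' = 6 ∨ t' = 7)) ∨ (t = 8 ∧ t' = 8)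

lemma supp_of_entry {r c : Line d M} (h : entry r c = true) : Supp (tag r) (tag c) := by
  cases r <;> cases c <;> first | (simp [entry] at h; done) | (simp [Supp, tag])

end Line

end Crest.Agent.S0066Lib
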