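import Crest.Agent.S0066Lib.Copy

/-! Far-ness: a matrix with few flips contains a copy of `H`. -/

set_option autoImplicit false

namespace Crest.Agent.S0066Lib

open Line

variable {d M N : ℕ}

open Classical in
/-- The flips. -/
noncomputable def flipSet (B : Line d M → Line d M → Bool) : Finset (Line d M × Line d M) :=
  Finset.univ.filter (fun rc => entry rc.1 rc.2 ≠ B rc.1 rc.2)

open Classical in
/-- Flips in a row. -/
noncomputable def flipsR (B : Line d M → Line d M → Bool) (r : Line d M) : ℕ :=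
  ((flipSet B).filter (fun rc => rc.1 = r)).card

open Classical in
/-- Flips in a column. -/
noncomputable def flipsC (B : Line d M → Line d M → Bool) (c : Line d M) : ℕ :=
  ((flipSet B).filter (fun rc => rc.2 = c)).card

lemma mem_flipSet {B : Line d M → Line d M → Bool} {r c : Line d M} :
    (r, c) ∈ flipSet B ↔ B r c ≠ entry r c := by
  classical
  simp [flipSet, ne_comm]

open Classical in
lemma sum_flipsR (B : Line d M → Line d M → Bool) :
    ∑ r : Line d M, flipsR B r = (flipSet B).card :=
  (Finset.card_eq_sum_card_fiberwise (f := Prod.fst) (s := flipSet B) (t := Finset.univ)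
    (fun _ _ => Finset.mem_univ _)).symm

open Classical in
lemma sum_flipsC (B : Line d M → Line d M → Bool) :
    ∑ c : Line d M, flipsC B c = (flipSet B).card :=
  (Finset.card_eq_sum_card_fiberwise (f := Prod.snd) (s := flipSet B) (t := Finset.univ)
    (fun _ _ => Finset.mem_univ _)).symm

open Classical in
lemma dirty_card {f : Line d M → ℕ} {T : ℕ}
    (hsum : ∑ r : Line d M, f r = T) (hT : T < N ^ 2) :
    (Finset.univ.filter (fun r => N ≤ 3 * f r)).card < 3 * N := by
  set D := Finset.univ.filter (fun r => N ≤ 3 * f r) with hD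
  have h1 : D.card * N ≤ 3 * T := by
    calc D.card * N = ∑ _r ∈ D, N := by simp
      _ ≤ ∑ r ∈ D, 3 * f r := Finset.sum_le_sum (fun r hr => (Finset.mem_filter.1 hr).2)
      _ = 3 * ∑ r ∈ D, f r := by rw [Finset.mul_sum]
      _ ≤ 3 * ∑ r, f r := by
          gcongr
          exact Finset.subset_univ _
      _ = 3 * T := by rw [hsum]
  by_contra hc
  push Not at hc
  have h2 : 3 * N * N ≤ D.card * N := Nat.mul_le_mul_right _ hc
  nlinarith

open Classical in
/-- An alive leaf exists. -/
lemma alive_leaf (hN : 0 < N) (hd : 2 ^ d = 8 * N) (B : Line d M → Line d M → Bool)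
    (hF : (flipSet B).card < N ^ 2) :
    ∃ π : List.Vector Bool d, ∀ x : Nd d, x.π = π →
      3 * flipsR B (node x) < N ∧ 3 * flipsC B (node x) < N := by
  by_contra hc
  push Not at hc
  have hcard : Fintype.card (List.Vector Bool d) = 8 * N := by
    rw [card_vector, Fintype.card_bool, hd]
  have hne : Nonempty (List.Vector Bool d) := by
    rw [← Fintype.card_pos_iff, hcard]; omega
  obtain ⟨π₀⟩ := hne
  let leafOf : Line d M → List.Vector Bool d := fun r =>
    match r with
    | node x => x.π
    | _ => π₀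
  set Dr := Finset.univ.filter (fun r => N ≤ 3 * flipsR B r) with hDr
  set Dc := Finset.univ.filter (fun r => N ≤ 3 * flipsC B r) with hDc
  have h1 : Dr.card < 3 * N := dirty_card (sum_flipsR B) hF
  have h2 : Dc.card < 3 * N := dirty_card (sum_flipsC B) hF
  have hsub : (Finset.univ : Finset (List.Vector Bool d)) ⊆ (Dr ∪ Dc).image leafOf := by
    intro π _
    obtain ⟨x, hx, h⟩ := hc π
    refine Finset.mem_image.2 ⟨node x, ?_, hx⟩
    rw [Finset.mem_union]
    by_cases h3 : N ≤ 3 * flipsR B (node x)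
    · exact Or.inl (Finset.mem_filter.2 ⟨Finset.mem_univ _, h3⟩)
    · exact Or.inr (Finset.mem_filter.2 ⟨Finset.mem_univ _, h (by omega)⟩)
  have h3 := Finset.card_le_card hsub
  have h4 := Finset.card_image_le (s := Dr ∪ Dc) (f := leafOf)
  have h5 := Finset.card_union_le Dr Dc
  rw [Finset.card_univ, hcard] at h3
  omega

open Classical in
/-- Few flags. -/
lemma flags_card {f : Line d M → ℕ} (U : Finset (Line d M)) (hU : U.card ≤ 3) (hN : 0 < N)
    (hc : ∀ r ∈ U, 3 * f r < N) : ∑ r ∈ U, f r + 1 ≤ N := by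
  have h1 : ∑ r ∈ U, 3 * f r ≤ ∑ _r ∈ U, (N - 1) :=
    Finset.sum_le_sum (fun r hr => by have := hc r hr; omega)
  rw [← Finset.mul_sum] at h1
  simp only [Finset.sum_const, smul_eq_mul] at h1
  have h2 : U.card * (N - 1) ≤ 3 * (N - 1) := Nat.mul_le_mul_right _ hU
  omega

open Classical in
/-- A set of at most `N - 1` naturals leaves at least `N + 1` slices. -/
lemma good_slices_card {A : Finset ℕ} (hM : M = 2 * N) (hA : A.card + 1 ≤ N) :
    N ≤ (Finset.univ.filter (fun s : Fin M => s.val ∉ A)).card := by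
  have h1 := Finset.card_filter_add_card_filter_not (s := (Finset.univ : Finset (Fin M)))
    (fun s : Fin M => s.val ∉ A)
  have h2 : (Finset.univ.filter (fun s : Fin M => ¬ s.val ∉ A)).card ≤ A.card := by
    apply Finset.card_le_card_of_injOn (fun s => s.val)
    · intro s hs
      have := (Finset.mem_filter.1 hs).2
      simpa using this
    · intro a _ b _ h
      exact Fin.ext h
  simp only [Finset.card_univ, Fintype.card_fin] at h1
  omega

open Classical in
/-- The good pair of slices. -/
lemma good_slices {code : List.Vector Bool d → ℕ} (hM : M = 2 * N) (hN : 0 < N)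
    (B : Line d M → Line d M → Bool) (hF : (flipSet B).card < N ^ 2)
    (Ur Uc : Finset (Line d M)) (hUr : Ur.card ≤ 3) (hUc : Uc.card ≤ 3)
    (cr : ∀ r ∈ Ur, 3 * flipsR B r < N) (cc : ∀ c ∈ Uc, 3 * flipsC B c < N) :
    ∃ s s' : Fin M, (∀ r c, sl code r = s → sl code c = s' → B r c = entry r c) ∧
      (∀ r ∈ Ur, ∀ c, sl code c = s' → B r c = entry r c) ∧
      (∀ c ∈ Uc, ∀ r, sl code r = s → B r c = entry r c) := by
  set F := flipSet B with hFdef
  -- flagged column slices
  set Ac : Finset ℕ := (F.filter (fun rc => rc.1 ∈ Ur)).image (fun rc => sl code rc.2) with hAc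
  set Ar : Finset ℕ := (F.filter (fun rc => rc.2 ∈ Uc)).image (fun rc => sl code rc.1) with hAr
  have hAc' : Ac.card + 1 ≤ N := by
    have h1 : Ac.card ≤ (F.filter (fun rc => rc.1 ∈ Ur)).card := Finset.card_image_le
    have h2 : (F.filter (fun rc => rc.1 ∈ Ur)).card = ∑ r ∈ Ur, flipsR B r := by
      rw [Finset.card_eq_sum_card_fiberwise (f := Prod.fst) (s := F.filter (fun rc => rc.1 ∈ Ur))
        (t := Ur) (fun x hx => Finset.mem_coe.2 (Finset.mem_filter.1 (Finset.mem_coe.1 hx)).2)]
      apply Finset.sum_congr rfl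
      intro r hr
      unfold flipsR
      congr 1
      ext rc
      simp only [Finset.mem_filter]
      constructor
      · rintro ⟨⟨h3, -⟩, h4⟩
        exact ⟨h3, h4⟩
      · rintro ⟨h3, h4⟩
        exact ⟨⟨h3, h4 ▸ hr⟩, h4⟩
    have h3 := flags_card (f := flipsR B) Ur hUr hN cr
    omega
  have hAr' : Ar.card + 1 ≤ N := by
    have h1 : Ar.card ≤ (F.filter (fun rc => rc.2 ∈ Uc)).card := Finset.card_image_le
    have h2 : (F.filter (fun rc => rc.2 ∈ Uc)).card = ∑ r ∈ Uc, flipsC B r := by
      rw [Finset.card_eq_sum_card_fiberwise (f := Prod.snd) (s := F.filter (fun rc => rc.2 ∈ Uc))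
        (t := Uc) (fun x hx => Finset.mem_coe.2 (Finset.mem_filter.1 (Finset.mem_coe.1 hx)).2)]
      apply Finset.sum_congr rfl
      intro r hr
      unfold flipsC
      congr 1
      ext rc
      simp only [Finset.mem_filter]
      constructor
      · rintro ⟨⟨h3, -⟩, h4⟩
        exact ⟨h3, h4⟩
      · rintro ⟨h3, h4⟩
        exact ⟨⟨h3, h4 ▸ hr⟩, h4⟩
    have h3 := flags_card (f := flipsC B) Uc hUc hN cc
    omega
  set GC := Finset.univ.filter (fun s : Fin M => s.val ∉ Ac) with hGC
  set GR := Finset.univ.filter (fun s : Fin M => s.val ∉ Ar) with hGR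
  have hGC' : N ≤ GC.card := good_slices_card hM hAc'
  have hGR' : N ≤ GR.card := good_slices_card hM hAr'
  set Bad : Finset (ℕ × ℕ) := F.image (fun rc => (sl code rc.1, sl code rc.2)) with hBad
  have hBadc : Bad.card ≤ F.card := Finset.card_image_le
  have hT : N ^ 2 ≤ ((GR ×ˢ GC).image (fun t => (t.1.val, t.2.val))).card := by
    rw [Finset.card_image_of_injective, Finset.card_product]
    · rw [pow_two]
      exact Nat.mul_le_mul hGR' hGC'
    · rintro ⟨a, b⟩ ⟨a', b'⟩ h
      simp only [Prod.mk.injEq] at h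
      exact Prod.ext (Fin.ext h.1) (Fin.ext h.2)
  obtain ⟨e, he, heB⟩ := Finset.exists_mem_notMem_of_card_lt_card
    (s := Bad) (t := (GR ×ˢ GC).image (fun t => (t.1.val, t.2.val))) (by omega)
  obtain ⟨⟨s, s'⟩, hss, rfl⟩ := Finset.mem_image.1 he
  obtain ⟨hs, hs'⟩ := Finset.mem_product.1 hss
  have hs1 : s.val ∉ Ar := (Finset.mem_filter.1 hs).2
  have hs2 : s'.val ∉ Ac := (Finset.mem_filter.1 hs').2
  refine ⟨s, s', ?_, ?_, ?_⟩
  · intro r c h1 h2
    by_contra h
    apply heB
    exact Finset.mem_image.2 ⟨(r, c), mem_flipSet.2 h, by simp [h1, h2]⟩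
  · intro r hr c h2
    by_contra h
    apply hs2
    exact Finset.mem_image.2 ⟨(r, c), Finset.mem_filter.2 ⟨mem_flipSet.2 h, hr⟩, h2⟩
  · intro c hc r h2
    by_contra h
    apply hs1
    exact Finset.mem_image.2 ⟨(r, c), Finset.mem_filter.2 ⟨mem_flipSet.2 h, hc⟩, h2⟩

end Crest.Agent.S0066Lib
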