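import Crest.Agent.S0066Lib.Far

/-! Far-ness: the induction along an alive leaf. -/

set_option autoImplicit false

namespace Crest.Agent.S0066Lib

open Line

variable {d M N : ℕ}

/-- lower part of class `c` -/
def Pa (c : Bool) : Fin 3 := if c then 1 else 0
/-- upper part of class `c` -/
def Pb (c : Bool) : Fin 3 := if c then 2 else 1

lemma Pa_class (c : Bool) : inClass c (Pa c) := by cases c <;> simp [inClass, Pa]
lemma Pb_class (c : Bool) : inClass c (Pb c) := by cases c <;> simp [inClass, Pb]
lemma Pa_lt (c : Bool) : pd (Pa c) < dg c := by cases c <;> simp [pd, Pa, dg]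
lemma Pb_gt (c : Bool) : dg c < pd (Pb c) := by cases c <;> simp [pd, Pb, dg]

lemma node_lt {X Y : Nd d} (h : X.key < Y.key) : (node X : Line d M) < node Y := by
  rw [lt_def]
  exact List.cons_lt_cons_iff.2 (Or.inr ⟨rfl, h⟩)

lemma key_lt_frame {X U : Nd d} {q : ℕ} {c : Bool} (hX : X.l.val = q) (hU : q < U.l.val)
    (ht : X.π.toList.take q = U.π.toList.take q) (hb : U.π.toList[q]? = some c)
    (hP : pd X.P < dg c) : X.key < U.key := by
  obtain ⟨r, hr⟩ := nk_split q X.l.val (pd X.P) X.π.toList hX.ge X.l_le_len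
  obtain ⟨r', hr'⟩ := nk_split q U.l.val (pd U.P) U.π.toList hU.le U.l_le_len
  unfold Nd.key
  rw [hr, hr', ht]
  apply lt_of_append_cons
  have h1 : nkHead q X.l.val (pd X.P) X.π.toList = pd X.P := by simp [nkHead, hX]
  have h2 : nkHead q U.l.val (pd U.P) U.π.toList = dg c := by
    have : U.l.val ≠ q := by omega
    simp [nkHead, this, hb]
  rw [h1, h2]
  exact hP

lemma key_gt_frame {Z U : Nd d} {q : ℕ} {c : Bool} (hZ : Z.l.val = q) (hU : q < U.l.val)
    (ht : Z.π.toList.take q = U.π.toList.take q) (hb : U.π.toList[q]? = some c)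
    (hP : dg c < pd Z.P) : U.key < Z.key := by
  obtain ⟨r, hr⟩ := nk_split q Z.l.val (pd Z.P) Z.π.toList hZ.ge Z.l_le_len
  obtain ⟨r', hr'⟩ := nk_split q U.l.val (pd U.P) U.π.toList hU.le U.l_le_len
  unfold Nd.key
  rw [hr, hr', ht]
  apply lt_of_append_cons
  have h1 : nkHead q Z.l.val (pd Z.P) Z.π.toList = pd Z.P := by simp [nkHead, hZ]
  have h2 : nkHead q U.l.val (pd U.P) U.π.toList = dg c := by
    have : U.l.val ≠ q := by omega
    simp [nkHead, this, hb]
  rw [h1, h2]
  exact hP

lemma mid_ty (f : Bool) (l : Fin d) (c : Bool) (k : Fin M) : Mid (ty f l c k : Line d M) := by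
  simp [Mid, tag]
lemma mid_ty0 (k : Fin M) : Mid (ty0 k : Line d M) := by simp [Mid, tag]
lemma mid_x1 (k : Fin M) : Mid (x1 k : Line d M) := by simp [Mid, tag]
lemma mid_x2 (k : Fin M) : Mid (x2 k : Line d M) := by simp [Mid, tag]
lemma mid_x3 (k : Fin M) : Mid (x3 k : Line d M) := by simp [Mid, tag]
lemma mid_node (x : Nd d) : Mid (node x : Line d M) := by simp [Mid, tag]

/-- Step `α`. -/
theorem frame_alpha {B : Line d M → Line d M → Bool} {code : List.Vector Bool d → ℕ}
    {s s' : Fin M} {q : ℕ} (hq : q < d) {c : Bool} {π : List Bool} (hc : π[q]? = some c)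
    {X1 X2 G1 G2 U V : Nd d}
    (hX1 : X1.l.val = q ∧ X1.P = Pa c ∧ X1.π.toList.take q = π.take q)
    (hX2 : X2.l.val = q ∧ X2.P = Pb c ∧ X2.π.toList.take q = π.take q)
    (hG1 : G1.l.val = q ∧ G1.P = Pa c ∧ G1.π.toList.take q = π.take q)
    (hG2 : G2.l.val = q ∧ G2.P = Pb c ∧ G2.π.toList.take q = π.take q)
    (hU : q < U.l.val ∧ U.π.toList = π) (hV : V.l.val = q + 1 ∧ V.π.toList = π)
    (hS : ∀ r c, sl code r = s → sl code c = s' → B r c = entry r c)
    (r1 : ∀ c, sl code c = s' → B (node X1) c = entry (node X1) c)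
    (ru : ∀ c, sl code c = s' → B (node U) c = entry (node U) c)
    (r2 : ∀ c, sl code c = s' → B (node X2) c = entry (node X2) c)
    (c1 : ∀ r, sl code r = s → B r (node G1) = entry r (node G1))
    (cv : ∀ r, sl code r = s → B r (node V) = entry r (node V))
    (c2 : ∀ r, sl code r = s → B r (node G2) = entry r (node G2))
    (b11 : B (node X1) (node G1) = true) (b1v : B (node X1) (node V) = true)
    (b12 : B (node X1) (node G2) = true)
    (bu1 : B (node U) (node G1) = true) (buv : B (node U) (node V) = false)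
    (bu2 : B (node U) (node G2) = true)
    (b21 : B (node X2) (node G1) = true) (b2v : B (node X2) (node V) = true)
    (b22 : B (node X2) (node G2) = true) :
    ∃ ρ κ : Fin 66 → Line d M, StrictMono ρ ∧ StrictMono κ ∧ ∀ i j, B (ρ i) (κ j) = Hpat i j := by
  have hcU : U.π.toList[q]? = some c := by rw [hU.2]; exact hc
  have hcV : V.π.toList[q]? = some c := by rw [hV.2]; exact hc
  refine copy_A (code := code) (s := s) (s' := s') (y := ty true ⟨q, hq⟩ c s)
    (w := ty false ⟨q, hq⟩ c s') hS rfl rfl r1 ru r2 c1 cv c2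
    (mid_ty _ _ _ _) (mid_node _) (mid_node _) (mid_node _)
    (mid_ty _ _ _ _) (mid_node _) (mid_node _) (mid_node _)
    (lt_of_tag_lt (by simp [tag])) (lt_of_tag_lt (by simp [tag]))
    (node_lt (key_lt_frame hX1.1 hU.1 (by rw [hX1.2.2, hU.2]) hcU (by rw [hX1.2.1]; exact Pa_lt c)))
    (node_lt (key_gt_frame hX2.1 hU.1 (by rw [hX2.2.2, hU.2]) hcU (by rw [hX2.2.1]; exact Pb_gt c)))
    (lt_of_tag_lt (by simp [tag])) (lt_of_tag_lt (by simp [tag]))
    (node_lt (key_lt_frame hG1.1 (by omega) (by rw [hG1.2.2, hV.2]) hcV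
      (by rw [hG1.2.1]; exact Pa_lt c)))
    (node_lt (key_gt_frame hG2.1 (by omega) (by rw [hG2.2.2, hV.2]) hcV
      (by rw [hG2.2.1]; exact Pb_gt c)))
    ?_ ?_ ?_ ?_ ?_ ?_ ?_ b11 b1v b12 bu1 buv bu2 b21 b2v b22
  · simp [entry]
  · simp only [entry]
    exact tyE_true_iff.2 (Or.inl ⟨hG1.1, by rw [hG1.2.1]; exact Pa_class c⟩)
  · simp only [entry]
    exact tyE_true_iff.2 (Or.inr hV.1)
  · simp only [entry]
    exact tyE_true_iff.2 (Or.inl ⟨hG2.1, by rw [hG2.2.1]; exact Pb_class c⟩)
  · simp only [entry]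
    exact tyE_false_iff.2 ⟨hX1.1, by rw [hX1.2.1]; exact Pa_class c⟩
  · simp only [entry]
    by_contra h
    have := (tyE_false_iff.1 (Bool.eq_true_of_not_eq_false h)).1
    have := hU.1
    simp_all
  · simp only [entry]
    exact tyE_false_iff.2 ⟨hX2.1, by rw [hX2.2.1]; exact Pb_class c⟩

/-- Step `β`. -/
theorem frame_beta {B : Line d M → Line d M → Bool} {code : List.Vector Bool d → ℕ}
    {s s' : Fin M} {q : ℕ} (hq : q < d) (hq2 : q + 1 < d) {c : Bool} {π : List Bool}
    (hc : π[q]? = some c)
    {X1 X2 G1 G2 U V : Nd d}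
    (hX1 : X1.l.val = q ∧ X1.P = Pa c ∧ X1.π.toList.take q = π.take q)
    (hX2 : X2.l.val = q ∧ X2.P = Pb c ∧ X2.π.toList.take q = π.take q)
    (hG1 : G1.l.val = q ∧ G1.P = Pa c ∧ G1.π.toList.take q = π.take q)
    (hG2 : G2.l.val = q ∧ G2.P = Pb c ∧ G2.π.toList.take q = π.take q)
    (hU : U.l.val = q + 1 ∧ U.π.toList = π) (hV : q < V.l.val ∧ V.π.toList = π)
    (hS : ∀ r c, sl code r = s → sl code c = s' → B r c = entry r c)
    (r1 : ∀ c, sl code c = s' → B (node X1) c = entry (node X1) c)
    (ru : ∀ c, sl code c = s' → B (node U) c = entry (node U) c)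
    (r2 : ∀ c, sl code c = s' → B (node X2) c = entry (node X2) c)
    (c1 : ∀ r, sl code r = s → B r (node G1) = entry r (node G1))
    (cv : ∀ r, sl code r = s → B r (node V) = entry r (node V))
    (c2 : ∀ r, sl code r = s → B r (node G2) = entry r (node G2))
    (b11 : B (node X1) (node G1) = true) (b1v : B (node X1) (node V) = true)
    (b12 : B (node X1) (node G2) = true)
    (bu1 : B (node U) (node G1) = true) (buv : B (node U) (node V) = false)
    (bu2 : B (node U) (node G2) = true)
    (b21 : B (node X2) (node G1) = true) (b2v : B (node X2) (node V) = true)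
    (b22 : B (node X2) (node G2) = true) :
    ∃ ρ κ : Fin 66 → Line d M, StrictMono ρ ∧ StrictMono κ ∧ ∀ i j, B (ρ i) (κ j) = Hpat i j := by
  have hcU : U.π.toList[q]? = some c := by rw [hU.2]; exact hc
  have hcV : V.π.toList[q]? = some c := by rw [hV.2]; exact hc
  refine copy_B (code := code) (s := s) (s' := s') (y := ty false ⟨q, hq⟩ c s)
    (w := ty true ⟨q, hq⟩ c s') hS rfl rfl r1 ru r2 c1 cv c2
    (mid_ty _ _ _ _) (mid_node _) (mid_node _) (mid_node _)
    (mid_ty _ _ _ _) (mid_node _) (mid_node _) (mid_node _)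
    (lt_of_tag_lt (by simp [tag])) (lt_of_tag_lt (by simp [tag]))
    (node_lt (key_lt_frame hX1.1 (by omega) (by rw [hX1.2.2, hU.2]) hcU
      (by rw [hX1.2.1]; exact Pa_lt c)))
    (node_lt (key_gt_frame hX2.1 (by omega) (by rw [hX2.2.2, hU.2]) hcU
      (by rw [hX2.2.1]; exact Pb_gt c)))
    (lt_of_tag_lt (by simp [tag])) (lt_of_tag_lt (by simp [tag]))
    (node_lt (key_lt_frame hG1.1 hV.1 (by rw [hG1.2.2, hV.2]) hcV
      (by rw [hG1.2.1]; exact Pa_lt c)))
    (node_lt (key_gt_frame hG2.1 hV.1 (by rw [hG2.2.2, hV.2]) hcV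
      (by rw [hG2.2.1]; exact Pb_gt c)))
    ?_ ?_ ?_ ?_ ?_ ?_ ?_ b11 b1v b12 bu1 buv bu2 b21 b2v b22
  · simp [entry, hq2]
  · simp only [entry]
    exact tyE_false_iff.2 ⟨hG1.1, by rw [hG1.2.1]; exact Pa_class c⟩
  · simp only [entry]
    by_contra h
    have := (tyE_false_iff.1 (Bool.eq_true_of_not_eq_false h)).1
    have := hV.1
    simp_all
  · simp only [entry]
    exact tyE_false_iff.2 ⟨hG2.1, by rw [hG2.2.1]; exact Pb_class c⟩
  · simp only [entry]
    exact tyE_true_iff.2 (Or.inl ⟨hX1.1, by rw [hX1.2.1]; exact Pa_class c⟩)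
  · simp only [entry]
    exact tyE_true_iff.2 (Or.inr hU.1)
  · simp only [entry]
    exact tyE_true_iff.2 (Or.inl ⟨hX2.1, by rw [hX2.2.1]; exact Pb_class c⟩)

lemma nodeE_root {x y : Nd d} (hx : x.l.val = 0) (hd : 0 < d) : nodeE x y = true := by
  rw [nodeE_true_iff]
  refine ⟨?_, by omega⟩
  simp [nodeComp, hx]

/-- The main statement: few flips leave a copy. -/
theorem far_main (hM : M = 2 * N) (hN : 0 < N) (hd : 2 ^ d = 8 * N)
    (B : Line d M → Line d M → Bool) (hF : (flipSet B).card < N ^ 2) :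
    ∃ ρ κ : Fin 66 → Line d M, StrictMono ρ ∧ StrictMono κ ∧ ∀ i j, B (ρ i) (κ j) = Hpat i j := by
  classical
  have hd1 : 0 < d := by
    by_contra h
    have : d = 0 := by omega
    subst this
    simp at hd
    omega
  have hcard : Fintype.card (Fin M) ≤ Fintype.card (List.Vector Bool d) := by
    rw [card_vector, Fintype.card_bool, hd, Fintype.card_fin]
    omega
  obtain ⟨ι⟩ := Function.Embedding.nonempty_of_card_le hcard
  let code : List.Vector Bool d → ℕ := fun π => if h : ∃ s, ι s = π then (Classical.choose h).val else 0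
  have hcode : ∀ s, code (ι s) = s.val := by
    intro s
    have h : ∃ t, ι t = ι s := ⟨s, rfl⟩
    simp only [code, dif_pos h]
    have := Classical.choose_spec h
    rw [ι.injective this]
  obtain ⟨π, hπ⟩ := alive_leaf hN hd B hF
  by_contra hno
  have Q : ∀ m, 0 < m → ∀ x y : Nd d, x.π = π → y.π = π → min x.l.val y.l.val = m →
      B (node x) (node y) = true := by
    intro m
    induction m using Nat.strong_induction_on with
    | _ m ih =>
      intro hm x y hx hy hmin
      by_contra hB
      have hB' : B (node x) (node y) = false := Bool.eq_false_of_not_eq_true hB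
      apply hno
      have hxd := x.l_le
      have hyd := y.l_le
      obtain ⟨q, rfl⟩ : ∃ q, m = q + 1 := ⟨m - 1, by omega⟩
      have hqd : q < d := by omega
      have hqlen : q < π.toList.length := by rw [π.toList_length]; exact hqd
      obtain ⟨c, hc⟩ : ∃ c, π.toList[q]? = some c := ⟨_, List.getElem?_eq_getElem hqlen⟩
      have hqx : q < x.l.val := by omega
      have hqy : q < y.l.val := by omega
      -- the frame
      have frame : ∃ (s s' : Fin M) (X1 X2 G1 G2 : Nd d),
          (X1.l.val = q ∧ X1.P = Pa c ∧ X1.π.toList.take q = π.toList.take q) ∧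
          (X2.l.val = q ∧ X2.P = Pb c ∧ X2.π.toList.take q = π.toList.take q) ∧
          (G1.l.val = q ∧ G1.P = Pa c ∧ G1.π.toList.take q = π.toList.take q) ∧
          (G2.l.val = q ∧ G2.P = Pb c ∧ G2.π.toList.take q = π.toList.take q) ∧
          (∀ r c, sl code r = s → sl code c = s' → B r c = entry r c) ∧
          (∀ c, sl code c = s' → B (node X1) c = entry (node X1) c) ∧
          (∀ c, sl code c = s' → B (node x) c = entry (node x) c) ∧
          (∀ c, sl code c = s' → B (node X2) c = entry (node X2) c) ∧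
          (∀ r, sl code r = s → B r (node G1) = entry r (node G1)) ∧
          (∀ r, sl code r = s → B r (node y) = entry r (node y)) ∧
          (∀ r, sl code r = s → B r (node G2) = entry r (node G2)) ∧
          B (node X1) (node G1) = true ∧ B (node X1) (node y) = true ∧
          B (node X1) (node G2) = true ∧
          B (node x) (node G1) = true ∧ B (node x) (node G2) = true ∧
          B (node X2) (node G1) = true ∧ B (node X2) (node y) = true ∧
          B (node X2) (node G2) = true := by
        by_cases hq0 : q = 0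
        · -- the root
          subst hq0
          obtain ⟨s, s', hS, hR, hC⟩ := good_slices (code := code) hM hN B hF {node x} {node y}
            (by simp) (by simp)
            (by
              intro r hr
              rw [Finset.mem_singleton.1 hr]
              exact (hπ x hx).1)
            (by
              intro r hr
              rw [Finset.mem_singleton.1 hr]
              exact (hπ y hy).2)
          have hru := hR _ (Finset.mem_singleton_self _)
          have hcv := hC _ (Finset.mem_singleton_self _)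
          let Z : Fin 3 → Fin M → Nd d := fun P t => ⟨⟨0, by omega⟩, P, ι t⟩
          have hZs : ∀ P t, sl code (node (Z P t) : Line d M) = t.val := by
            intro P t
            simp [sl, Z, hcode]
          have hZl : ∀ P t, (Z P t).l.val = 0 := fun _ _ => rfl
          have hZr : ∀ P t (w : Nd d), nodeE (Z P t) w = true :=
            fun P t w => nodeE_root (hZl P t) hd1
          refine ⟨s, s', Z (Pa c) s, Z (Pb c) s, Z (Pa c) s', Z (Pb c) s',
            ⟨rfl, rfl, by simp [Z]⟩, ⟨rfl, rfl, by simp [Z]⟩, ⟨rfl, rfl, by simp [Z]⟩,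
            ⟨rfl, rfl, by simp [Z]⟩, hS, fun c' h => hS _ _ (hZs _ _) h, hru,
            fun c' h => hS _ _ (hZs _ _) h, fun r h => hS _ _ h (hZs _ _), hcv,
            fun r h => hS _ _ h (hZs _ _), ?_, ?_, ?_, ?_, ?_, ?_, ?_, ?_⟩
          · rw [hS _ _ (hZs _ _) (hZs _ _)]; exact hZr _ _ _
          · rw [hcv _ (hZs _ _)]; exact hZr _ _ _
          · rw [hS _ _ (hZs _ _) (hZs _ _)]; exact hZr _ _ _
          · rw [hru _ (hZs _ _)]; simp only [entry]; rw [nodeE_comm]; exact hZr _ _ _
          · rw [hru _ (hZs _ _)]; simp only [entry]; rw [nodeE_comm]; exact hZr _ _ _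
          · rw [hS _ _ (hZs _ _) (hZs _ _)]; exact hZr _ _ _
          · rw [hcv _ (hZs _ _)]; exact hZr _ _ _
          · rw [hS _ _ (hZs _ _) (hZs _ _)]; exact hZr _ _ _
        · -- a proper node
          have hq1 : 0 < q := by omega
          let Z : Fin 3 → Nd d := fun P => ⟨⟨q, by omega⟩, P, π⟩
          have hZl : ∀ P, (Z P).l.val = q := fun _ => rfl
          have hZπ : ∀ P, (Z P).π = π := fun _ => rfl
          have hclean : ∀ P, 3 * flipsR B (node (Z P)) < N ∧ 3 * flipsC B (node (Z P)) < N :=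
            fun P => hπ _ (hZπ P)
          obtain ⟨s, s', hS, hR, hC⟩ := good_slices (code := code) hM hN B hF
            {node (Z (Pa c)), node x, node (Z (Pb c))} {node (Z (Pa c)), node y, node (Z (Pb c))}
            Finset.card_le_three Finset.card_le_three
            (by
              intro r hr
              simp only [Finset.mem_insert, Finset.mem_singleton] at hr
              rcases hr with rfl | rfl | rfl
              · exact (hclean _).1
              · exact (hπ x hx).1
              · exact (hclean _).1)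
            (by
              intro r hr
              simp only [Finset.mem_insert, Finset.mem_singleton] at hr
              rcases hr with rfl | rfl | rfl
              · exact (hclean _).2
              · exact (hπ y hy).2
              · exact (hclean _).2)
          have IH : ∀ a b : Nd d, a.π = π → b.π = π → min a.l.val b.l.val = q →
              B (node a) (node b) = true := fun a b ha hb h => ih q (by omega) hq1 a b ha hb h
          refine ⟨s, s', Z (Pa c), Z (Pb c), Z (Pa c), Z (Pb c),
            ⟨rfl, rfl, by simp [Z]⟩, ⟨rfl, rfl, by simp [Z]⟩, ⟨rfl, rfl, by simp [Z]⟩,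
            ⟨rfl, rfl, by simp [Z]⟩, hS, hR _ (by simp), hR _ (by simp), hR _ (by simp),
            fun r => hC _ (by simp) r, fun r => hC _ (by simp) r, fun r => hC _ (by simp) r,
            ?_, ?_, ?_, ?_, ?_, ?_, ?_, ?_⟩
          · exact IH _ _ rfl rfl (by simp [Z])
          · exact IH _ _ rfl hy (by simp only [hZl]; omega)
          · exact IH _ _ rfl rfl (by simp [Z])
          · exact IH _ _ hx rfl (by simp only [hZl]; omega)
          · exact IH _ _ hx rfl (by simp only [hZl]; omega)
          · exact IH _ _ rfl rfl (by simp [Z])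
          · exact IH _ _ rfl hy (by simp only [hZl]; omega)
          · exact IH _ _ rfl rfl (by simp [Z])
      obtain ⟨s, s', X1, X2, G1, G2, hX1, hX2, hG1, hG2, hS, r1, ru, r2, c1, cv, c2,
        b11, b1v, b12, bu1, bu2, b21, b2v, b22⟩ := frame
      by_cases hyl : y.l.val = q + 1
      · exact frame_alpha hqd hc hX1 hX2 hG1 hG2 ⟨hqx, by rw [hx]⟩ ⟨hyl, by rw [hy]⟩ hS
          r1 ru r2 c1 cv c2 b11 b1v b12 bu1 hB' bu2 b21 b2v b22
      · exact frame_beta hqd (by omega) hc hX1 hX2 hG1 hG2 ⟨by omega, by rw [hx]⟩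
          ⟨hqy, by rw [hy]⟩ hS r1 ru r2 c1 cv c2 b11 b1v b12 bu1 hB' bu2 b21 b2v b22
  -- the paradox at the leaf
  let u : Nd d := ⟨Fin.last d, 1, π⟩
  have hb : B (node u) (node u) = true := Q d hd1 u u rfl rfl (by simp [u])
  obtain ⟨s, s', hS, hR, hC⟩ := good_slices (code := code) hM hN B hF {node u} {node u}
    (by simp) (by simp)
    (by
      intro r hr
      rw [Finset.mem_singleton.1 hr]
      exact (hπ u rfl).1)
    (by
      intro r hr
      rw [Finset.mem_singleton.1 hr]
      exact (hπ u rfl).2)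
  have hru := hR _ (Finset.mem_singleton_self _)
  have hcv := hC _ (Finset.mem_singleton_self _)
  apply hno
  refine copy_A (code := code) (s := s) (s' := s') (y := ty0 s) (w := ty0 s') (x₁ := x1 s)
    (u := node u) (x₂ := x2 s) (g₁ := node u) (v := x2 s') (g₂ := x3 s') hS rfl rfl
    (fun c h => hS _ _ rfl h) hru (fun c h => hS _ _ rfl h) hcv (fun r h => hS _ _ h rfl)
    (fun r h => hS _ _ h rfl)
    (mid_ty0 _) (mid_x1 _) (mid_node _) (mid_x2 _) (mid_ty0 _) (mid_node _) (mid_x2 _) (mid_x3 _)
    (lt_of_tag_lt (by simp [tag])) (lt_of_tag_lt (by simp [tag])) (lt_of_tag_lt (by simp [tag]))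
    (lt_of_tag_lt (by simp [tag])) (lt_of_tag_lt (by simp [tag])) (lt_of_tag_lt (by simp [tag]))
    (lt_of_tag_lt (by simp [tag])) (lt_of_tag_lt (by simp [tag]))
    rfl (by simp [entry, u]) rfl rfl rfl rfl rfl ?_ ?_ ?_ hb ?_ ?_ ?_ ?_ ?_
  · rw [hcv _ rfl]; simp [entry, u]
  · rw [hS _ _ rfl rfl]; rfl
  · rw [hS _ _ rfl rfl]; rfl
  · rw [hru _ rfl]; rfl
  · rw [hru _ rfl]; simp [entry, u]
  · rw [hcv _ rfl]; simp [entry, u]
  · rw [hS _ _ rfl rfl]; rfl
  · rw [hS _ _ rfl rfl]; rfl

/-- Far-ness. -/
theorem far (hM : M = 2 * N) (hN : 0 < N) (hd : 2 ^ d = 8 * N)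
    (B : Line d M → Line d M → Bool)
    (hB : ¬ ∃ ρ κ : Fin 66 → Line d M, StrictMono ρ ∧ StrictMono κ ∧
      ∀ i j, B (ρ i) (κ j) = Hpat i j) :
    N ^ 2 ≤ (flipSet B).card := by
  by_contra h
  exact hB (far_main hM hN hd B (by omega))

end Crest.Agent.S0066Lib
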