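import Crest.Agent.S0066Lib.Coid

/-! The 4×4 frame analysis in the middle zone, and the structure of copies. -/

set_option autoImplicit false

namespace Crest.Agent.S0066Lib

open Line

variable {d M : ℕ}

lemma sig_before {r : Line d M} {s : Fin M} (h : r < sig 0 s) : tag r ≤ 3 ∧
    (tag r = 3 → ∃ k, r = sig 0 k) := by
  refine ⟨tag_le_of_lt h, ?_⟩
  intro h3
  obtain ⟨p, k, rfl⟩ := tag_eq3 h3
  have := sig_lt h
  have hp : p = 0 := Fin.ext (by simpa using this)
  exact ⟨k, by rw [hp]⟩

lemma sig_after {r : Line d M} {s : Fin M} (h : sig 28 s < r) : 3 ≤ tag r :=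
  tag_le_of_lt h

/-- Preliminary lemma: what the corner of the frame can be. -/
lemma prelim {y x w : Line d M} {s0 s0' s28 : Fin M}
    (hy : y < sig 0 s0) (hw : w < sig 0 s0') (hx : sig 28 s28 < x)
    (e1 : entry y w = true) (e2 : entry x w = true) :
    (∃ f l c k f' k', y = ty f l c k ∧ w = ty f' l c k' ∧
        ((f = true ∧ f' = false) ∨ (f = false ∧ f' = true ∧ l.val + 1 < d))) ∨
      (∃ k k', y = ty0 k ∧ w = ty0 k') := by
  obtain ⟨t1, t2⟩ := sig_before hy
  obtain ⟨t3, t4⟩ := sig_before hw
  have t5 := sig_after hx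
  have s1 := supp_of_entry e1
  have s2 := supp_of_entry e2
  simp only [Supp] at s1 s2
  have hcases : (tag y = 1 ∧ tag w = 1) ∨ (tag y = 2 ∧ tag w = 2) ∨ (tag y = 3 ∧ tag w = 3) := by
    omega
  rcases hcases with ⟨h1, h2⟩ | ⟨h1, h2⟩ | ⟨h1, h2⟩
  · left
    rcases ty_cases (Or.inl h1) with ⟨f, l, c, k, rfl⟩ | ⟨k, rfl⟩
    · rcases ty_cases (Or.inl h2) with ⟨f', l', c', k', rfl⟩ | ⟨k', rfl⟩
      · simp only [entry, decide_eq_true_eq] at e1
        obtain ⟨rfl, rfl, h⟩ := e1
        exact ⟨_, _, _, _, _, _, rfl, rfl, h⟩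
      · simp [tag] at h2
    · simp [tag] at h1
  · right
    rcases ty_cases (Or.inr h1) with ⟨f, l, c, k, rfl⟩ | ⟨k, rfl⟩
    · simp [tag] at h1
    · rcases ty_cases (Or.inr h2) with ⟨f', l', c', k', rfl⟩ | ⟨k', rfl⟩
      · simp [tag] at h2
      · exact ⟨_, _, rfl, rfl⟩
  · exfalso
    obtain ⟨k, rfl⟩ := t2 h1
    obtain ⟨k', rfl⟩ := t4 h2
    simp [entry] at e1

lemma tyE_false_iff {l : Fin d} {c : Bool} {x : Nd d} :
    tyE false l c x = true ↔ (x.l.val = l.val ∧ inClass c x.P) := by
  simp [tyE]

lemma tyE_true_iff {l : Fin d} {c : Bool} {x : Nd d} :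
    tyE true l c x = true ↔ ((x.l.val = l.val ∧ inClass c x.P) ∨ x.l.val = l.val + 1) := by
  simp [tyE]

/-- Positive frame analysis. -/
theorem F_pos {y x₁ u x₂ w g₁ v g₂ : Line d M} {s0 s0' s28 s28' : Fin M}
    (hy : y < sig 0 s0) (hw : w < sig 0 s0') (hx : sig 28 s28 < x₁) (hg : sig 28 s28' < g₁)
    (h12 : x₁ < u) (h23 : u < x₂) (h45 : g₁ < v) (h56 : v < g₂)
    (eyw : entry y w = true) (ey1 : entry y g₁ = true) (eyv : entry y v = true)
    (ey2 : entry y g₂ = true)
    (e1w : entry x₁ w = true) (e11 : entry x₁ g₁ = true) (e1v : entry x₁ v = true)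
    (e12 : entry x₁ g₂ = true)
    (euw : entry u w = false) (eu1 : entry u g₁ = true) (euv : entry u v = false)
    (eu2 : entry u g₂ = true)
    (e2w : entry x₂ w = true) (e21 : entry x₂ g₁ = true) (e2v : entry x₂ v = true)
    (e22 : entry x₂ g₂ = true) :
    (∃ P P' π, u = node ⟨Fin.last d, P, π⟩ ∧ v = node ⟨Fin.last d, P', π⟩) ∧
      ∃ l c k, l.val + 1 = d ∧ y = ty true l c k := by
  have tx := sig_after hx
  have tg := sig_after hg
  have t12 := tag_le_of_lt h12
  have t23 := tag_le_of_lt h23
  have t45 := tag_le_of_lt h45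
  have t56 := tag_le_of_lt h56
  have s1 := supp_of_entry e1w
  have s2 := supp_of_entry e2w
  have s3 := supp_of_entry ey1
  have s4 := supp_of_entry eyv
  have s5 := supp_of_entry ey2
  have s6 := supp_of_entry eu1
  have s7 := supp_of_entry eu2
  simp only [Supp] at s1 s2 s3 s4 s5 s6 s7
  rcases prelim hy hw hx eyw e1w with ⟨f, l, c, k, f', k', rfl, rfl, hf⟩ | ⟨k, k', rfl, rfl⟩
  · -- typed corner
    have ty1 : tag (ty f l c k : Line d M) = 1 := rfl
    have ty2 : tag (ty f' l c k' : Line d M) = 1 := rfl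
    have tA1 : tag x₁ = 5 := by omega
    have tB : tag u = 5 := by omega
    have tA2 : tag x₂ = 5 := by omega
    have tC1 : tag g₁ = 5 := by omega
    have tE : tag v = 5 := by omega
    have tC2 : tag g₂ = 5 := by omega
    obtain ⟨A1, rfl⟩ := tag_eq5 tA1
    obtain ⟨B, rfl⟩ := tag_eq5 tB
    obtain ⟨A2, rfl⟩ := tag_eq5 tA2
    obtain ⟨C1, rfl⟩ := tag_eq5 tC1
    obtain ⟨E, rfl⟩ := tag_eq5 tE
    obtain ⟨C2, rfl⟩ := tag_eq5 tC2
    simp only [entry] at e1w e2w euw ey1 eyv ey2 e11 e1v e12 eu1 euv eu2 e21 e2v e22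
    have k1 : A1.key < B.key := by
      have := lt_def.1 h12
      simp only [key] at this
      rcases List.cons_lt_cons_iff.1 this with h | ⟨-, h⟩
      · exact absurd h (lt_irrefl _)
      · exact h
    have k2 : B.key < A2.key := by
      have := lt_def.1 h23
      simp only [key] at this
      rcases List.cons_lt_cons_iff.1 this with h | ⟨-, h⟩
      · exact absurd h (lt_irrefl _)
      · exact h
    have k3 : C1.key < E.key := by
      have := lt_def.1 h45
      simp only [key] at this
      rcases List.cons_lt_cons_iff.1 this with h | ⟨-, h⟩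
      · exact absurd h (lt_irrefl _)
      · exact h
    have k4 : E.key < C2.key := by
      have := lt_def.1 h56
      simp only [key] at this
      rcases List.cons_lt_cons_iff.1 this with h | ⟨-, h⟩
      · exact absurd h (lt_irrefl _)
      · exact h
    rcases hf with ⟨rfl, rfl⟩ | ⟨rfl, rfl, hl⟩
    · -- the main case
      have hB : ¬ (B.l.val = l.val ∧ inClass c B.P) := by
        intro h
        have := tyE_false_iff.2 h
        rw [this] at euw
        exact Bool.noConfusion euw
      obtain ⟨h1, h2, h3, h4⟩ := core_main l.isLt (tyE_false_iff.1 e1w) (tyE_false_iff.1 e2w) hB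
        (tyE_true_iff.1 ey1) (tyE_true_iff.1 eyv) (tyE_true_iff.1 ey2) k1 k2 k3 k4
        e11 e12 e1v e2v eu1 eu2 euv
      refine ⟨⟨B.P, E.P, B.π, ?_, ?_⟩, l, c, k, h1, rfl⟩
      · obtain ⟨bl, bP, bπ⟩ := B
        have : bl = Fin.last d := Fin.ext h2
        subst this
        rfl
      · obtain ⟨el, eP, eπ⟩ := E
        have : el = Fin.last d := Fin.ext h3
        subst this
        simp only at h4 ⊢
        rw [h4]
    · -- the side case
      exfalso
      have hG := (tyE_false_iff.1 ey1).1
      have hV := (tyE_false_iff.1 eyv).1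
      have hX : l.val ≤ A1.l.val := by
        rcases tyE_true_iff.1 e1w with h | h <;> omega
      have := core_side l.isLt hG hV hX e11 e1v eu1
      rw [this] at euv
      exact Bool.noConfusion euv
  · -- the corner `ty0`
    exfalso
    have ty1 : tag (ty0 k : Line d M) = 2 := rfl
    have ty2 : tag (ty0 k' : Line d M) = 2 := rfl
    -- rows `x₁, x₂` have tags `4` or `6`, and `u` is a node
    have hu5 : tag u = 5 := by
      by_contra hne
      have h1 : tag u = 4 ∨ tag u = 6 := by omega
      rcases h1 with h1 | h1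
      · obtain ⟨k1, rfl⟩ := tag_eq4 h1
        simp [entry] at euw
      · obtain ⟨k1, rfl⟩ := tag_eq6 h1
        simp [entry] at euw
    obtain ⟨B, rfl⟩ := tag_eq5 hu5
    have tB : tag (node B : Line d M) = 5 := rfl
    by_cases hBl : B.l.val = d
    · -- `B` at the leaf level
      have hnot : ∀ {C : Nd d}, entry (ty0 k : Line d M) (node C) = true →
          entry (node B : Line d M) (node C) = true → False := by
        intro C h1 h2
        simp only [entry, decide_eq_true_eq] at h1
        simp only [entry, nodeE_true_iff] at h2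
        exact h2.2 ⟨hBl, h1⟩
      have t1 : tag g₁ = 7 := by
        by_contra hne
        have : tag g₁ = 5 := by omega
        obtain ⟨C, rfl⟩ := tag_eq5 this
        exact hnot ey1 eu1
      have t2 : tag g₂ = 7 := by
        by_contra hne
        have : tag g₂ = 5 := by omega
        obtain ⟨C, rfl⟩ := tag_eq5 this
        exact hnot ey2 eu2
      have t3 : tag v = 7 := by omega
      obtain ⟨k3, rfl⟩ := tag_eq7 t3
      simp [entry, hBl] at euv
    · -- `B` above the leaf level
      have t1 : tag g₁ = 5 := by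
        by_contra hne
        have h7 : tag g₁ = 7 := by omega
        obtain ⟨k3, rfl⟩ := tag_eq7 h7
        simp [entry, hBl] at eu1
      have t2 : tag g₂ = 5 := by
        by_contra hne
        have h7 : tag g₂ = 7 := by omega
        obtain ⟨k3, rfl⟩ := tag_eq7 h7
        simp [entry, hBl] at eu2
      have t3 : tag v = 5 := by omega
      obtain ⟨C1, rfl⟩ := tag_eq5 t1
      obtain ⟨C2, rfl⟩ := tag_eq5 t2
      obtain ⟨E, rfl⟩ := tag_eq5 t3
      simp only [entry, decide_eq_true_eq] at ey1 eyv ey2 eu1 eu2 euv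
      have hB1 := B.l_le
      have hp : (B.π.toList.take B.l.val).length = B.l.val := by simp [B.len]; omega
      have uC : ∀ {C : Nd d}, C.l.val = d → nodeE B C = true →
          C.Under (B.π.toList.take B.l.val) := by
        intro C hC hE
        have h1 := ((nodeE_true_iff _ _).1 hE).1
        rw [nodeComp_of_le (by omega)] at h1
        exact ⟨by rw [hp, ← h1], by rw [hp]; omega⟩
      have k3 : C1.key < E.key := by
        have := lt_def.1 h45
        simp only [key] at this
        rcases List.cons_lt_cons_iff.1 this with h | ⟨-, h⟩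
        · exact absurd h (lt_irrefl _)
        · exact h
      have k4 : E.key < C2.key := by
        have := lt_def.1 h56
        simp only [key] at this
        rcases List.cons_lt_cons_iff.1 this with h | ⟨-, h⟩
        · exact absurd h (lt_irrefl _)
        · exact h
      obtain ⟨h1, -⟩ := under_convex (uC ey1 eu1) (uC ey2 eu2) k3 k4
      rw [hp] at h1
      have hc : nodeComp B E := by
        rw [nodeComp_of_le (by omega)]
        exact h1.symm
      have := (nodeE_false_iff _ _).1 euv hc
      exact hBl this.1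

/-- Negative frame analysis for the transposed frame. -/
theorem Ft_neg {y x₁ u x₂ w g₁ v g₂ : Line d M} {s0 s0' s28 s28' : Fin M}
    (hy : y < sig 0 s0) (hw : w < sig 0 s0') (hx : sig 28 s28 < x₁) (hg : sig 28 s28' < g₁)
    (h12 : x₁ < u) (h23 : u < x₂) (h45 : g₁ < v) (h56 : v < g₂)
    (eyw : entry y w = true) (ey1 : entry y g₁ = true) (eyv : entry y v = false)
    (ey2 : entry y g₂ = true)
    (e1w : entry x₁ w = true) (e11 : entry x₁ g₁ = true) (e1v : entry x₁ v = true)
    (e12 : entry x₁ g₂ = true)
    (euw : entry u w = true) (eu1 : entry u g₁ = true) (euv : entry u v = false)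
    (eu2 : entry u g₂ = true)
    (e2w : entry x₂ w = true) (e21 : entry x₂ g₁ = true) (e2v : entry x₂ v = true)
    (e22 : entry x₂ g₂ = true) : False := by
  have tx := sig_after hx
  have tg := sig_after hg
  have t12 := tag_le_of_lt h12
  have t23 := tag_le_of_lt h23
  have t45 := tag_le_of_lt h45
  have t56 := tag_le_of_lt h56
  have s1 := supp_of_entry e1w
  have s2 := supp_of_entry e2w
  have s0 := supp_of_entry euw
  have s3 := supp_of_entry ey1
  have s5 := supp_of_entry ey2
  simp only [Supp] at s0 s1 s2 s3 s5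
  rcases prelim hy hw hx eyw e1w with ⟨f, l, c, k, f', k', rfl, rfl, hf⟩ | ⟨k, k', rfl, rfl⟩
  · have ty1 : tag (ty f l c k : Line d M) = 1 := rfl
    have ty2 : tag (ty f' l c k' : Line d M) = 1 := rfl
    have tA1 : tag x₁ = 5 := by omega
    have tB : tag u = 5 := by omega
    have tA2 : tag x₂ = 5 := by omega
    have tC1 : tag g₁ = 5 := by omega
    have tE : tag v = 5 := by omega
    have tC2 : tag g₂ = 5 := by omega
    obtain ⟨A1, rfl⟩ := tag_eq5 tA1
    obtain ⟨B, rfl⟩ := tag_eq5 tB
    obtain ⟨A2, rfl⟩ := tag_eq5 tA2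
    obtain ⟨C1, rfl⟩ := tag_eq5 tC1
    obtain ⟨E, rfl⟩ := tag_eq5 tE
    obtain ⟨C2, rfl⟩ := tag_eq5 tC2
    simp only [entry] at e1w e2w euw ey1 eyv ey2 e11 e1v e12 eu1 euv eu2 e21 e2v e22
    have k1 : A1.key < B.key := by
      have := lt_def.1 h12
      simp only [key] at this
      rcases List.cons_lt_cons_iff.1 this with h | ⟨-, h⟩
      · exact absurd h (lt_irrefl _)
      · exact h
    have k2 : B.key < A2.key := by
      have := lt_def.1 h23
      simp only [key] at this
      rcases List.cons_lt_cons_iff.1 this with h | ⟨-, h⟩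
      · exact absurd h (lt_irrefl _)
      · exact h
    have k3 : C1.key < E.key := by
      have := lt_def.1 h45
      simp only [key] at this
      rcases List.cons_lt_cons_iff.1 this with h | ⟨-, h⟩
      · exact absurd h (lt_irrefl _)
      · exact h
    have k4 : E.key < C2.key := by
      have := lt_def.1 h56
      simp only [key] at this
      rcases List.cons_lt_cons_iff.1 this with h | ⟨-, h⟩
      · exact absurd h (lt_irrefl _)
      · exact h
    rcases hf with ⟨rfl, rfl⟩ | ⟨rfl, rfl, hl⟩
    · -- big row, small column: side case transposed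
      have hG := (tyE_false_iff.1 e1w).1
      have hV := (tyE_false_iff.1 euw).1
      have hX : l.val ≤ C1.l.val := by
        rcases tyE_true_iff.1 ey1 with h | h <;> omega
      have := core_side l.isLt hG hV hX (by rw [nodeE_comm]; exact e11)
        (by rw [nodeE_comm]; exact eu1) (by rw [nodeE_comm]; exact e1v)
      rw [nodeE_comm, euv] at this
      exact Bool.noConfusion this
    · -- small row, big column: the main case transposed
      have hB : ¬ (E.l.val = l.val ∧ inClass c E.P) := by
        intro h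
        have := tyE_false_iff.2 h
        rw [this] at eyv
        exact Bool.noConfusion eyv
      obtain ⟨h1, -, -, -⟩ := core_main l.isLt (tyE_false_iff.1 ey1) (tyE_false_iff.1 ey2) hB
        (tyE_true_iff.1 e1w) (tyE_true_iff.1 euw) (tyE_true_iff.1 e2w) k3 k4 k1 k2
        (by rw [nodeE_comm]; exact e11) (by rw [nodeE_comm]; exact e21)
        (by rw [nodeE_comm]; exact eu1) (by rw [nodeE_comm]; exact eu2)
        (by rw [nodeE_comm]; exact e1v) (by rw [nodeE_comm]; exact e2v)
        (by rw [nodeE_comm]; exact euv)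
      omega
  · have ty1 : tag (ty0 k : Line d M) = 2 := rfl
    have ty2 : tag (ty0 k' : Line d M) = 2 := rfl
    have tv : tag v = 5 ∨ tag v = 6 ∨ tag v = 7 := by omega
    rcases tv with tv | tv | tv
    · obtain ⟨E, rfl⟩ := tag_eq5 tv
      have hE : E.l.val ≠ d := by simpa [entry] using eyv
      have t1 : tag x₁ = 4 ∨ tag x₁ = 6 := by omega
      rcases t1 with t1 | t1
      · obtain ⟨k1, rfl⟩ := tag_eq4 t1
        simp [entry, hE] at e1v
      · obtain ⟨k1, rfl⟩ := tag_eq6 t1
        simp [entry, hE] at e1v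
    · obtain ⟨k1, rfl⟩ := tag_eq6 tv
      simp [entry] at eyv
    · obtain ⟨k1, rfl⟩ := tag_eq7 tv
      simp [entry] at eyv

/-- Structure of the copies of `H` in the matrix. -/
theorem copy_critical {ρ κ : Fin 66 → Line d M} (hρ : StrictMono ρ) (hκ : StrictMono κ)
    (he : ∀ i j, entry (ρ i) (κ j) = Hpat i j) :
    (∃ P P' π, ρ (up 31) = node ⟨Fin.last d, P, π⟩ ∧ κ (up 31) = node ⟨Fin.last d, P', π⟩) ∧
      ∃ l c k, l.val + 1 = d ∧ ρ (up 0) = ty true l c k := by
  have upm : ∀ {p q : Fin 33}, p < q → up p < up q := by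
    intro p q h
    simp only [Fin.lt_def, up] at h ⊢
    exact h
  have dnm : ∀ {p q : Fin 33}, p < q → dn p < dn q := by
    intro p q h
    simp only [Fin.lt_def, dn] at h ⊢
    omega
  have updn : ∀ {p q : Fin 33}, up p < dn q := by
    intro p q
    simp only [Fin.lt_def, up, dn]
    omega
  have sgm : ∀ {i j : Fin 29}, i < j → sg i < sg j := by
    intro i j h
    simp only [Fin.lt_def, sg] at h ⊢
    omega
  -- the two co-identities
  have hA := coid_location (a := fun j => ρ (up (sg j))) (b := fun j => κ (up (sg j)))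
    (fun i j h => hρ (upm (sgm h))) (fun i j h => hκ (upm (sgm h)))
    (fun i j => by rw [he]; simp)
  have hB := coid_location (a := fun j => ρ (dn (sg j))) (b := fun j => κ (dn (sg j)))
    (fun i j h => hρ (dnm (sgm h))) (fun i j h => hκ (dnm (sgm h)))
    (fun i j => by rw [he]; simp [ne_comm])
  -- order between the two blocks
  have hab : ρ (up (sg 28)) < ρ (dn (sg 0)) := hρ updn
  have tab := tag_le_of_lt hab
  rcases hA with ⟨a0, a1, a2, a3, h1, h2, h3, h4⟩ | ⟨a0, a1, a2, a3, h1, h2, h3, h4⟩ |
      ⟨a0, a1, a2, a3, h1, h2, h3, h4⟩ <;>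
    rcases hB with ⟨b0, b1, b2, b3, h5, h6, h7, h8⟩ | ⟨b0, b1, b2, b3, h5, h6, h7, h8⟩ |
      ⟨b0, b1, b2, b3, h5, h6, h7, h8⟩
  · -- z1, z1
    exfalso
    rw [h2, h5] at hab
    have := z1_lt hab
    revert this
    decide
  · -- z1, mid: the transposed frame in the middle
    exfalso
    have f00 : entry (ρ (dn 0)) (κ (dn 0)) = true := by rw [he]; simp; decide
    have hy : ρ (dn 0) < sig 0 b0 := by rw [← h5]; exact hρ (dnm (by decide))
    have hw : κ (dn 0) < sig 0 b2 := by rw [← h7]; exact hκ (dnm (by decide))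
    have hx : sig 28 b1 < ρ (dn 30) := by rw [← h6]; exact hρ (dnm (by decide))
    have hg : sig 28 b3 < κ (dn 30) := by rw [← h8]; exact hκ (dnm (by decide))
    refine Ft_neg (u := ρ (dn 31)) (x₂ := ρ (dn 32)) (v := κ (dn 31)) (g₂ := κ (dn 32))
      hy hw hx hg (hρ (dnm (by decide))) (hρ (dnm (by decide)))
      (hκ (dnm (by decide))) (hκ (dnm (by decide))) f00 ?_ ?_ ?_ ?_ ?_ ?_ ?_ ?_ ?_ ?_ ?_ ?_ ?_ ?_ ?_ <;>
      rw [he] <;> simp <;> decide
  · -- z1, z2: the all-ones block contradicts the pattern
    exfalso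
    have := he (up (sg 0)) (dn (sg 0))
    rw [h1, h7] at this
    simp [entry] at this
  · -- mid, z1
    exfalso
    rw [h2, h5] at tab
    simp [tag] at tab
  · -- mid, mid
    exfalso
    rw [h2, h5] at hab
    have := sig_lt hab
    revert this
    decide
  · -- mid, z2 : the main case
    have hy : ρ (up 0) < sig 0 a0 := by rw [← h1]; exact hρ (upm (by decide))
    have hw : κ (up 0) < sig 0 a2 := by rw [← h3]; exact hκ (upm (by decide))
    have hx : sig 28 a1 < ρ (up 30) := by rw [← h2]; exact hρ (upm (by decide))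
    have hg : sig 28 a3 < κ (up 30) := by rw [← h4]; exact hκ (upm (by decide))
    exact F_pos (u := ρ (up 31)) (x₂ := ρ (up 32)) (v := κ (up 31)) (g₂ := κ (up 32))
      hy hw hx hg (hρ (upm (by decide))) (hρ (upm (by decide)))
      (hκ (upm (by decide))) (hκ (upm (by decide)))
      (by rw [he]; simp; decide) (by rw [he]; simp; decide) (by rw [he]; simp; decide)
      (by rw [he]; simp; decide) (by rw [he]; simp; decide) (by rw [he]; simp; decide)
      (by rw [he]; simp; decide) (by rw [he]; simp; decide) (by rw [he]; simp; decide)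
      (by rw [he]; simp; decide) (by rw [he]; simp; decide) (by rw [he]; simp; decide)
      (by rw [he]; simp; decide) (by rw [he]; simp; decide) (by rw [he]; simp; decide)
      (by rw [he]; simp; decide)
  · -- z2, z1
    exfalso
    rw [h2, h5] at tab
    simp [tag] at tab
  · -- z2, mid
    exfalso
    rw [h2, h5] at tab
    simp [tag] at tab
  · -- z2, z2
    exfalso
    rw [h2, h5] at hab
    have := z2_lt hab
    revert this
    decide

end Crest.Agent.S0066Lib
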