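import Mathlib

/-! List lemmas for S0066: lexicographic order, node keys. -/

set_option autoImplicit false

namespace Crest.Agent.S0066Lib

/-- digit of a path bit -/
def dg (b : Bool) : ℕ := if b then 3 else 1

lemma dg_false : dg false = 1 := rfl
lemma dg_true : dg true = 3 := rfl

lemma dg_odd (b : Bool) : dg b % 2 = 1 := by cases b <;> rfl

lemma dg_inj {a b : Bool} (h : dg a = dg b) : a = b := by
  cases a <;> cases b <;> simp_all [dg]

/-- node key: path digits up to depth `l`, the part digit, then the remaining digits. -/
def nk : ℕ → ℕ → List Bool → List ℕ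
  | 0, δ, π => δ :: π.map dg
  | _ + 1, δ, [] => [δ]
  | l + 1, δ, b :: π => dg b :: nk l δ π

@[simp] lemma nk_zero (δ : ℕ) (π : List Bool) : nk 0 δ π = δ :: π.map dg := by
  cases π <;> rfl

@[simp] lemma nk_succ_cons (l δ : ℕ) (b : Bool) (π : List Bool) :
    nk (l + 1) δ (b :: π) = dg b :: nk l δ π := rfl

/-- Lexicographic comparison after a common prefix. -/
lemma lt_of_append_cons (pre : List ℕ) {a b : ℕ} (r s : List ℕ) (h : a < b) :
    pre ++ a :: r < pre ++ b :: s := by
  induction pre with
  | nil =>
    simp only [List.nil_append]
    exact List.cons_lt_cons_iff.2 (Or.inl h)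
  | cons x pre ih =>
    simp only [List.cons_append]
    exact List.cons_lt_cons_iff.2 (Or.inr ⟨rfl, ih⟩)

/-- A list strictly between two lists with a common prefix has this prefix, with next digit
in between. -/
lemma between (pre : List ℕ) {a b : ℕ} {r s m : List ℕ}
    (h1 : pre ++ a :: r < m) (h2 : m < pre ++ b :: s) :
    ∃ e t, m = pre ++ e :: t ∧ a ≤ e ∧ e ≤ b := by
  induction pre generalizing m with
  | nil =>
    simp only [List.nil_append] at h1 h2 ⊢
    cases m with
    | nil => exact absurd h1 (List.not_lt_nil _)
    | cons e t =>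
      refine ⟨e, t, rfl, ?_, ?_⟩
      · rcases List.cons_lt_cons_iff.1 h1 with h | ⟨h, _⟩
        · exact h.le
        · exact h.le
      · rcases List.cons_lt_cons_iff.1 h2 with h | ⟨h, _⟩
        · exact h.le
        · exact h.le
  | cons x pre ih =>
    simp only [List.cons_append] at h1 h2 ⊢
    cases m with
    | nil => exact absurd h1 (List.not_lt_nil _)
    | cons y t =>
      have hy : y = x := by
        rcases List.cons_lt_cons_iff.1 h1 with h | ⟨h, _⟩
        · rcases List.cons_lt_cons_iff.1 h2 with h' | ⟨h', _⟩
          · omega
          · omega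
        · exact h.symm
      subst hy
      have h1' : pre ++ a :: r < t := by
        rcases List.cons_lt_cons_iff.1 h1 with h | ⟨_, h⟩
        · exact absurd h (lt_irrefl _)
        · exact h
      have h2' : t < pre ++ b :: s := by
        rcases List.cons_lt_cons_iff.1 h2 with h | ⟨_, h⟩
        · exact absurd h (lt_irrefl _)
        · exact h
      obtain ⟨e, t', rfl, h3, h4⟩ := ih h1' h2'
      exact ⟨e, t', rfl, h3, h4⟩

/-- The head of the node key after the digits of the prefix. -/
def nkHead (l₀ l δ : ℕ) (π : List Bool) : ℕ :=
  if l = l₀ then δ else (π[l₀]?.map dg).getD 0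

/-- Splitting a node key after the digits of a prefix. -/
lemma nk_split (l₀ l δ : ℕ) (π : List Bool) (h0 : l₀ ≤ l) (hl : l ≤ π.length) :
    ∃ r, nk l δ π = (π.take l₀).map dg ++ nkHead l₀ l δ π :: r := by
  induction l₀ generalizing l π with
  | zero =>
    cases l with
    | zero => exact ⟨π.map dg, by simp [nkHead]⟩
    | succ l =>
      cases π with
      | nil => simp at hl
      | cons b π => exact ⟨nk l δ π, by simp [nkHead]⟩
  | succ l₀ ih =>
    cases l with
    | zero => omega
    | succ l =>
      cases π with
      | nil => simp at hl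
      | cons b π =>
        obtain ⟨r, hr⟩ := ih l π (by omega) (by simpa using hl)
        refine ⟨r, ?_⟩
        simp only [nk_succ_cons, List.take_succ_cons, List.map_cons, List.cons_append, hr]
        simp [nkHead]

/-- Reading the structure of a node key from a prefix. -/
lemma nk_prefix (p : List Bool) (l δ : ℕ) (π : List Bool) (ε : ℕ) (r : List ℕ)
    (hl : l ≤ π.length) (hδ : δ % 2 = 0)
    (h : nk l δ π = p.map dg ++ ε :: r) :
    p.length ≤ l ∧ π.take p.length = p ∧ ε = nkHead p.length l δ π := by
  induction p generalizing l π with
  | nil =>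
    cases l with
    | zero =>
      simp only [nk_zero, List.map_nil, List.nil_append, List.cons.injEq] at h
      simp [nkHead, h.1]
    | succ l =>
      cases π with
      | nil => simp at hl
      | cons b π =>
        simp only [nk_succ_cons, List.map_nil, List.nil_append, List.cons.injEq] at h
        simp [nkHead, h.1]
  | cons a p ih =>
    cases l with
    | zero =>
      simp only [nk_zero, List.map_cons, List.cons_append, List.cons.injEq] at h
      have := dg_odd a
      omega
    | succ l =>
      cases π with
      | nil => simp at hl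
      | cons b π =>
        simp only [nk_succ_cons, List.map_cons, List.cons_append, List.cons.injEq] at h
        obtain ⟨h1, h2⟩ := h
        have hab := dg_inj h1
        subst hab
        obtain ⟨h3, h4, h5⟩ := ih l π (by simpa using hl) h2
        refine ⟨by simpa using h3, by simp [h4], ?_⟩
        simp [nkHead] at h5 ⊢
        exact h5

/-- Injectivity of the node key. -/
lemma nk_inj (l l' δ δ' : ℕ) (π π' : List Bool) (hl : l ≤ π.length) (hl' : l' ≤ π'.length)
    (hδ : δ % 2 = 0) (hδ' : δ' % 2 = 0) (h : nk l δ π = nk l' δ' π') :
    l = l' ∧ δ = δ' ∧ π = π' := by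
  induction l generalizing l' π π' with
  | zero =>
    cases l' with
    | zero =>
      simp only [nk_zero, List.cons.injEq] at h
      refine ⟨rfl, h.1, ?_⟩
      exact List.map_injective_iff.2 (fun a b h => dg_inj h) h.2
    | succ l' =>
      cases π' with
      | nil => simp at hl'
      | cons b π' =>
        simp only [nk_zero, nk_succ_cons, List.cons.injEq] at h
        have := dg_odd b
        omega
  | succ l ih =>
    cases π with
    | nil => simp at hl
    | cons a π =>
      cases l' with
      | zero =>
        simp only [nk_zero, nk_succ_cons, List.cons.injEq] at h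
        have := dg_odd a
        omega
      | succ l' =>
        cases π' with
        | nil => simp at hl'
        | cons b π' =>
          simp only [nk_succ_cons, List.cons.injEq] at h
          have hab := dg_inj h.1
          subst hab
          obtain ⟨h1, h2, h3⟩ := ih l' π π' (by simpa using hl) (by simpa using hl') h.2
          exact ⟨by omega, h2, by simp [h3]⟩

/-- Prefix comparability. -/
def Comp (a b : List Bool) : Prop := a <+: b ∨ b <+: a

lemma Comp.symm {a b : List Bool} (h : Comp a b) : Comp b a := Or.symm h

/-- 2x2 lemma: a 2x2 co-identity forces the columns to be non-comparable. -/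
lemma comp_two {a1 a2 b1 b2 : List Bool}
    (h12 : Comp a1 b2) (h21 : Comp a2 b1) (h11 : ¬ Comp a1 b1) (h22 : ¬ Comp a2 b2) :
    ¬ Comp b1 b2 := by
  have key : ∀ {a1 a2 b1 b2 : List Bool}, Comp a1 b2 → ¬ Comp a1 b1 → b1 <+: b2 → False := by
    intro a1 a2 b1 b2 h12 h11 h
    rcases h12 with h12 | h12
    · exact h11 (List.prefix_or_prefix_of_prefix h12 h)
    · exact h11 (Or.inr (h.trans h12))
  rintro (h | h)
  · exact key (a2 := a2) h12 h11 h
  · exact key (a2 := a1) h21 h22 h

/-- A prefix-comparability relation has no 3x3 co-identity. -/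
lemma no_coid3 {a1 a2 a3 b1 b2 b3 : List Bool}
    (h12 : Comp a1 b2) (h13 : Comp a1 b3) (h21 : Comp a2 b1) (h23 : Comp a2 b3)
    (h31 : Comp a3 b1) (h32 : Comp a3 b2)
    (h11 : ¬ Comp a1 b1) (h22 : ¬ Comp a2 b2) (h33 : ¬ Comp a3 b3) : False := by
  -- columns pairwise non comparable
  have n23 : ¬ Comp b2 b3 := comp_two h23 h32 h22 h33
  have n13 : ¬ Comp b1 b3 := comp_two h13 h31 h11 h33
  have n12 : ¬ Comp b1 b2 := comp_two h12 h21 h11 h22
  -- rows a1, a2 are prefixes of b3
  have p1 : a1 <+: b3 := by
    rcases h13 with h | h
    · exact h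
    · exfalso
      rcases h12 with h' | h'
      · exact n23 (Or.inr (h.trans h'))
      · exact n23 (List.prefix_or_prefix_of_prefix h' h)
  have p2 : a2 <+: b3 := by
    rcases h23 with h | h
    · exact h
    · exfalso
      rcases h21 with h' | h'
      · exact n13 (Or.inr (h.trans h'))
      · exact n13 (List.prefix_or_prefix_of_prefix h' h)
  have c12 : Comp a1 a2 := List.prefix_or_prefix_of_prefix p1 p2
  -- a 2x2 co-identity forces rows non-comparable as well
  have n : ¬ Comp a1 a2 := by
    rintro (h | h)
    · rcases h21 with h' | h'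
      · exact h11 (Or.inl (h.trans h'))
      · exact h11 (List.prefix_or_prefix_of_prefix h h') |>.elim
    · rcases h12 with h' | h'
      · exact h22 (Or.inl (h.trans h'))
      · exact h22 (List.prefix_or_prefix_of_prefix h h') |>.elim
  exact n c12

end Crest.Agent.S0066Lib
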