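import Crest.Agent.S0066Lib.Defs

/-! Tree lemmas for S0066. -/

set_option autoImplicit false

namespace Crest.Agent.S0066Lib

variable {d : ℕ}

lemma Nd.len (x : Nd d) : x.π.toList.length = d := x.π.toList_length

lemma Nd.l_le (x : Nd d) : x.l.val ≤ d := Nat.lt_succ_iff.1 x.l.isLt

lemma Nd.l_le_len (x : Nd d) : x.l.val ≤ x.π.toList.length := by
  rw [x.len]; exact x.l_le

lemma nodeComp_comm (x y : Nd d) : nodeComp x y ↔ nodeComp y x := by
  simp only [nodeComp, min_comm x.l.val y.l.val]
  exact eq_comm

lemma nodeE_comm (x y : Nd d) : nodeE x y = nodeE y x := by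
  simp only [nodeE, nodeComp_comm x y, and_comm (a := x.l.val = d)]

lemma nodeE_true_iff (x y : Nd d) :
    nodeE x y = true ↔ nodeComp x y ∧ ¬ (x.l.val = d ∧ y.l.val = d) := by
  simp only [nodeE, decide_eq_true_eq]

lemma nodeE_false_iff (x y : Nd d) :
    nodeE x y = false ↔ (nodeComp x y → x.l.val = d ∧ y.l.val = d) := by
  simp only [nodeE, decide_eq_false_iff_not]
  tauto

lemma nodeComp_of_le {x y : Nd d} (h : x.l.val ≤ y.l.val) :
    nodeComp x y ↔ x.π.toList.take x.l.val = y.π.toList.take x.l.val := by
  simp [nodeComp, min_eq_left h]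

lemma nodeComp_of_ge {x y : Nd d} (h : y.l.val ≤ x.l.val) :
    nodeComp x y ↔ x.π.toList.take y.l.val = y.π.toList.take y.l.val := by
  simp [nodeComp, min_eq_right h]

lemma take_eq_of_take_eq {a b : List Bool} {m n : ℕ} (h : m ≤ n) (hab : a.take n = b.take n) :
    a.take m = b.take m := by
  have := congrArg (List.take m) hab
  simpa [List.take_take, min_eq_left h] using this

/-- Region of a node `p`, class `c`: the two class parts at `p` and everything under child `c`. -/
def Nd.Region (x : Nd d) (p : List Bool) (c : Bool) : Prop :=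
  x.π.toList.take p.length = p ∧
    ((x.l.val = p.length ∧ inClass c x.P) ∨ (p.length < x.l.val ∧ x.π.toList[p.length]? = some c))

def lo (c : Bool) : ℕ := if c then 2 else 0
def hi (c : Bool) : ℕ := if c then 4 else 2

lemma pd_le (P : Fin 3) : pd P ≤ 4 := by simp [pd]; omega

lemma region_key {x : Nd d} {p : List Bool} {c : Bool} (h : x.Region p c) :
    ∃ e r, x.key = p.map dg ++ e :: r ∧ lo c ≤ e ∧ e ≤ hi c := by
  obtain ⟨h1, h2⟩ := h
  have hle : p.length ≤ x.l.val := by
    rcases h2 with h2 | h2
    · exact h2.1.ge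
    · exact h2.1.le
  obtain ⟨r, hr⟩ := nk_split p.length x.l.val (pd x.P) x.π.toList hle x.l_le_len
  rw [h1] at hr
  refine ⟨_, r, hr, ?_⟩
  rcases h2 with ⟨h2, h3⟩ | ⟨h2, h3⟩
  · have hP := x.P.isLt
    simp only [nkHead, if_pos h2, lo, hi, pd]
    cases c <;> simp [inClass] at h3 ⊢ <;> omega
  · have hne : x.l.val ≠ p.length := by omega
    simp only [nkHead, if_neg hne, h3]
    cases c <;> simp [lo, hi, dg]

lemma key_region {x : Nd d} {p : List Bool} {c : Bool} {e : ℕ} {r : List ℕ}
    (h : x.key = p.map dg ++ e :: r) (h1 : lo c ≤ e) (h2 : e ≤ hi c) : x.Region p c := by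
  obtain ⟨h3, h4, h5⟩ := nk_prefix p x.l.val (pd x.P) x.π.toList e r x.l_le_len
    (Line.pd_even _) h
  refine ⟨h4, ?_⟩
  by_cases h6 : x.l.val = p.length
  · left
    refine ⟨h6, ?_⟩
    simp only [nkHead, if_pos h6] at h5
    have hP := x.P.isLt
    subst h5
    cases c <;> simp [lo, hi, pd] at h1 h2 <;> simp [inClass] <;> omega
  · right
    have h7 : p.length < x.l.val := by omega
    refine ⟨h7, ?_⟩
    simp only [nkHead, if_neg h6] at h5
    have h8 : p.length < x.π.toList.length := lt_of_lt_of_le h7 x.l_le_len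
    rw [List.getElem?_eq_getElem h8] at h5 ⊢
    simp only [Option.map_some, Option.getD_some] at h5
    subst h5
    revert h1 h2
    cases x.π.toList[p.length] <;> cases c <;> simp [lo, hi, dg]

/-- Convexity of a region. -/
lemma region_convex {x y z : Nd d} {p : List Bool} {c : Bool}
    (hx : x.Region p c) (hz : z.Region p c) (h1 : x.key < y.key) (h2 : y.key < z.key) :
    y.Region p c := by
  obtain ⟨e1, r1, hr1, h11, h12⟩ := region_key hx
  obtain ⟨e3, r3, hr3, h31, h32⟩ := region_key hz
  rw [hr1] at h1
  rw [hr3] at h2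
  obtain ⟨e, t, ht, h4, h5⟩ := between _ h1 h2
  exact key_region ht (by omega) (by omega)

/-- Being under a node `p`. -/
def Nd.Under (x : Nd d) (p : List Bool) : Prop :=
  x.π.toList.take p.length = p ∧ p.length ≤ x.l.val

lemma under_key {x : Nd d} {p : List Bool} (h : x.Under p) :
    ∃ e r, x.key = p.map dg ++ e :: r := by
  obtain ⟨h1, h2⟩ := h
  obtain ⟨r, hr⟩ := nk_split p.length x.l.val (pd x.P) x.π.toList h2 x.l_le_len
  rw [h1] at hr
  exact ⟨_, r, hr⟩

lemma under_convex {x y z : Nd d} {p : List Bool}
    (hx : x.Under p) (hz : z.Under p) (h1 : x.key < y.key) (h2 : y.key < z.key) :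
    y.Under p := by
  obtain ⟨e1, r1, hr1⟩ := under_key hx
  obtain ⟨e3, r3, hr3⟩ := under_key hz
  rw [hr1] at h1
  rw [hr3] at h2
  obtain ⟨e, t, ht, -, -⟩ := between _ h1 h2
  obtain ⟨h3, h4, -⟩ := nk_prefix p y.l.val (pd y.P) y.π.toList e t y.l_le_len
    (Line.pd_even _) ht
  exact ⟨h4, h3⟩

lemma take_succ_eq {a b : List Bool} {l : ℕ} (h : a.take l = b.take l)
    (h' : a[l]? = b[l]?) : a.take (l + 1) = b.take (l + 1) := by
  rw [List.take_add_one, List.take_add_one, h, h']

lemma getElem?_eq_of_take {a b : List Bool} {l : ℕ} (h : a.take (l + 1) = b.take (l + 1)) :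
    a[l]? = b[l]? := by
  have h1 := congrArg (fun t => t[l]?) h
  simpa [List.getElem?_take] using h1

lemma length_take_pre (x : Nd d) {l : ℕ} (hl : l ≤ d) : (x.π.toList.take l).length = l := by
  simp [x.len, hl]

/-- The main core lemma: the sandwiched cell is critical. -/
lemma core_main {l : ℕ} {c : Bool} (hl : l < d) {A1 B A2 C1 E C2 : Nd d}
    (hA1 : A1.l.val = l ∧ inClass c A1.P) (hA2 : A2.l.val = l ∧ inClass c A2.P)
    (hB : ¬ (B.l.val = l ∧ inClass c B.P))
    (hC1 : (C1.l.val = l ∧ inClass c C1.P) ∨ C1.l.val = l + 1)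
    (hE : (E.l.val = l ∧ inClass c E.P) ∨ E.l.val = l + 1)
    (hC2 : (C2.l.val = l ∧ inClass c C2.P) ∨ C2.l.val = l + 1)
    (hlt1 : A1.key < B.key) (hlt2 : B.key < A2.key)
    (hlt3 : C1.key < E.key) (hlt4 : E.key < C2.key)
    (h1C1 : nodeE A1 C1 = true) (h1C2 : nodeE A1 C2 = true) (h1E : nodeE A1 E = true)
    (h2E : nodeE A2 E = true)
    (hBC1 : nodeE B C1 = true) (hBC2 : nodeE B C2 = true) (hBE : nodeE B E = false) :
    l + 1 = d ∧ B.l.val = d ∧ E.l.val = d ∧ B.π = E.π := by
  set p := A1.π.toList.take l with hp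
  have hplen : p.length = l := by simp [hp, A1.len]; omega
  have lC1 : l ≤ C1.l.val := by rcases hC1 with h | h <;> omega
  have lE : l ≤ E.l.val := by rcases hE with h | h <;> omega
  have lC2 : l ≤ C2.l.val := by rcases hC2 with h | h <;> omega
  -- all prefixes agree
  have tE : E.π.toList.take l = p := by
    have := ((nodeE_true_iff _ _).1 h1E).1
    rw [nodeComp_of_le (by omega), hA1.1] at this
    exact this.symm
  have tC1 : C1.π.toList.take l = p := by
    have := ((nodeE_true_iff _ _).1 h1C1).1
    rw [nodeComp_of_le (by omega), hA1.1] at this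
    exact this.symm
  have tC2 : C2.π.toList.take l = p := by
    have := ((nodeE_true_iff _ _).1 h1C2).1
    rw [nodeComp_of_le (by omega), hA1.1] at this
    exact this.symm
  have tA2 : A2.π.toList.take l = p := by
    have := ((nodeE_true_iff _ _).1 h2E).1
    rw [nodeComp_of_le (by omega), hA2.1] at this
    rw [this, tE]
  have rA1 : A1.Region p c := ⟨by rw [hplen], Or.inl ⟨by omega, hA1.2⟩⟩
  have rA2 : A2.Region p c := ⟨by rw [hplen, tA2], Or.inl ⟨by omega, hA2.2⟩⟩
  have rB := region_convex rA1 rA2 hlt1 hlt2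
  obtain ⟨tB, hB'⟩ := rB
  rw [hplen] at tB hB'
  have hB2 : l < B.l.val ∧ B.π.toList[l]? = some c := by
    rcases hB' with h | h
    · exact absurd h hB
    · exact h
  -- the columns lie in the region
  have key_col : ∀ {C : Nd d}, C.π.toList.take l = p →
      ((C.l.val = l ∧ inClass c C.P) ∨ C.l.val = l + 1) → nodeE B C = true → C.Region p c := by
    intro C tC hC hBC
    refine ⟨by rw [hplen, tC], ?_⟩
    rw [hplen]
    rcases hC with hC | hC
    · exact Or.inl hC
    · right
      refine ⟨by omega, ?_⟩
      have := ((nodeE_true_iff _ _).1 hBC).1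
      rw [nodeComp_of_ge (by omega), hC] at this
      rw [← getElem?_eq_of_take this, hB2.2]
  have rC1 := key_col tC1 hC1 hBC1
  have rC2 := key_col tC2 hC2 hBC2
  have rE := region_convex rC1 rC2 hlt3 hlt4
  rcases hE with hE | hE
  · -- `E` at depth `l`
    exfalso
    have hc : nodeComp B E := by
      rw [nodeComp_of_ge (by omega), hE.1, tB, tE]
    have hE' := (nodeE_false_iff _ _).1 hBE hc
    omega
  · -- `E` at depth `l+1`
    have hEbit : E.π.toList[l]? = some c := by
      obtain ⟨-, h⟩ := rE
      rw [hplen] at h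
      rcases h with h | h
      · omega
      · exact h.2
    have ht : B.π.toList.take (l + 1) = E.π.toList.take (l + 1) := by
      apply take_succ_eq
      · rw [tB, tE]
      · rw [hB2.2, hEbit]
    have hc : nodeComp B E := by
      rw [nodeComp_of_ge (by omega), hE]
      exact ht
    have hE' := (nodeE_false_iff _ _).1 hBE hc
    refine ⟨by omega, hE'.1, hE'.2, ?_⟩
    apply List.Vector.eq
    rw [← hE, hE'.2] at ht
    have hB3 := B.len
    have hE3 := E.len
    rw [← List.take_of_length_le (l := B.π.toList) (i := d) (by omega),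
      ← List.take_of_length_le (l := E.π.toList) (i := d) (by omega)]
    exact ht

/-- The side core lemma: same depth, same prefix. -/
lemma core_side {l : ℕ} (hl : l < d) {G V X U : Nd d}
    (hG : G.l.val = l) (hV : V.l.val = l) (hX : l ≤ X.l.val)
    (hXG : nodeE X G = true) (hXV : nodeE X V = true) (hUG : nodeE U G = true) :
    nodeE U V = true := by
  have h1 := ((nodeE_true_iff _ _).1 hXG).1
  have h2 := ((nodeE_true_iff _ _).1 hXV).1
  have h3 := ((nodeE_true_iff _ _).1 hUG).1
  rw [nodeComp_of_ge (by omega), hG] at h1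
  rw [nodeComp_of_ge (by omega), hV] at h2
  have h4 : G.π.toList.take l = V.π.toList.take l := h1.symm.trans h2
  rw [nodeE_true_iff]
  refine ⟨?_, by omega⟩
  simp only [nodeComp, hV] at h3 ⊢
  simp only [hG] at h3
  rw [h3]
  exact take_eq_of_take_eq (min_le_right _ _) h4

/-! ### No 3×3 co-identity among node lines -/

/-- marker extension -/
def extW (b : Bool) (x : Nd d) : List Bool :=
  (x.π.toList ++ [b]).take (if x.l.val = d then d + 1 else x.l.val)

lemma comp_take_iff (W W' : List Bool) (i j : ℕ) (hi : i ≤ W.length) (hj : j ≤ W'.length) :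
    Comp (W.take i) (W'.take j) ↔ W.take (min i j) = W'.take (min i j) := by
  have key : ∀ (W W' : List Bool) (i j : ℕ), i ≤ W.length → j ≤ W'.length → i ≤ j →
      (Comp (W.take i) (W'.take j) ↔ W.take i = W'.take i) := by
    intro W W' i j hi hj hij
    constructor
    · rintro (h | h)
      · have h1 := List.prefix_iff_eq_take.1 h
        have hlen : (W.take i).length = i := by simp; omega
        rw [hlen, List.take_take, min_eq_left hij] at h1
        exact h1
      · have hlen := h.length_le
        simp only [List.length_take] at hlen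
        have hij' : i = j := by omega
        subst hij'
        exact (h.eq_of_length (by simp; omega)).symm
    · intro h
      left
      rw [h]
      exact List.take_prefix_take_left hij
  rcases le_total i j with h | h
  · rw [min_eq_left h]
    exact key W W' i j hi hj h
  · rw [min_eq_right h]
    unfold Comp
    rw [or_comm]
    exact (key W' W j i hj hi h).trans eq_comm

lemma take_append_one_of_le (π : List Bool) (b : Bool) (m : ℕ) (h : m ≤ π.length) :
    (π ++ [b]).take m = π.take m := by
  rw [List.take_append_of_le_length h]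

lemma comp_extW_iff (x y : Nd d) :
    Comp (extW false x) (extW true y) ↔ nodeE x y = true := by
  have hlx : (x.π.toList ++ [false]).length = d + 1 := by simp [x.len]
  have hly : (y.π.toList ++ [true]).length = d + 1 := by simp [y.len]
  have hxl := x.l_le
  have hyl := y.l_le
  unfold extW
  rw [comp_take_iff _ _ _ _ (by rw [hlx]; split <;> omega) (by rw [hly]; split <;> omega),
    nodeE_true_iff]
  by_cases hx : x.l.val = d <;> by_cases hy : y.l.val = d
  · simp only [hx, hy, if_true, min_self]
    simp only [true_and, not_true_eq_false, and_false, iff_false]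
    rw [List.take_of_length_le (by omega), List.take_of_length_le (by omega)]
    intro h
    have h2 := congrArg List.getLast? h
    simp at h2
  · simp only [hx, hy, if_true, if_false, nodeComp]
    have hm : min (d + 1) y.l.val = y.l.val := by omega
    have hm' : min d y.l.val = y.l.val := by omega
    simp only [hm, hm', true_and, not_false_eq_true, and_true]
    rw [take_append_one_of_le _ _ _ (by rw [x.len]; omega),
      take_append_one_of_le _ _ _ (by rw [y.len]; omega)]
  · simp only [hx, hy, if_true, if_false, nodeComp]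
    have hm : min x.l.val (d + 1) = x.l.val := by omega
    have hm' : min x.l.val d = x.l.val := by omega
    simp only [hm, hm', not_false_eq_true, and_true]
    rw [take_append_one_of_le _ _ _ (by rw [x.len]; omega),
      take_append_one_of_le _ _ _ (by rw [y.len]; omega)]
  · simp only [hx, hy, if_false, nodeComp, false_and, not_false_eq_true, and_true]
    rw [take_append_one_of_le _ _ _ (by rw [x.len]; omega),
      take_append_one_of_le _ _ _ (by rw [y.len]; omega)]

/-- No 3×3 co-identity among node lines. -/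
lemma no_coid3_nd {a1 a2 a3 b1 b2 b3 : Nd d}
    (h12 : nodeE a1 b2 = true) (h13 : nodeE a1 b3 = true) (h21 : nodeE a2 b1 = true)
    (h23 : nodeE a2 b3 = true) (h31 : nodeE a3 b1 = true) (h32 : nodeE a3 b2 = true)
    (h11 : nodeE a1 b1 = false) (h22 : nodeE a2 b2 = false) (h33 : nodeE a3 b3 = false) :
    False := by
  refine no_coid3 (a1 := extW false a1) (a2 := extW false a2) (a3 := extW false a3)
    (b1 := extW true b1) (b2 := extW true b2) (b3 := extW true b3)
    ((comp_extW_iff _ _).2 h12) ((comp_extW_iff _ _).2 h13) ((comp_extW_iff _ _).2 h21)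
    ((comp_extW_iff _ _).2 h23) ((comp_extW_iff _ _).2 h31) ((comp_extW_iff _ _).2 h32)
    ?_ ?_ ?_
  · rw [comp_extW_iff, h11]; simp
  · rw [comp_extW_iff, h22]; simp
  · rw [comp_extW_iff, h33]; simp

end Crest.Agent.S0066Lib
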